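import Crest.Agent.R140.Zig

/-!
The combinatorial invariant carried along the good paths of the chain.
-/

set_option autoImplicit false

open Finset Finsupp
open scoped BigOperators

namespace Crest.Agent.R140

/-- indices kept by the pattern `(o, r)` -/
def kap (q d o r j : ℕ) : ℕ := o + (j + r) + (j + r) / q * d

lemma kap_strictMono (q d o r : ℕ) : StrictMono (kap q d o r) := by
  intro i j hij
  have : (i + r) / q * d ≤ (j + r) / q * d :=
    Nat.mul_le_mul_right _ (Nat.div_le_div_right (by omega))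
  simp only [kap]
  omega

lemma kap_eq {q d o r j a b : ℕ} (h : j + r = a * q + b) (hb : b < q) :
    kap q d o r j = o + a * (q + d) + b := by
  have : (j + r) / q = a := by
    rw [h, add_comm, Nat.add_mul_div_right _ _ (by omega), Nat.div_eq_of_lt hb, zero_add]
  rw [kap, this, h]
  ring

lemma mulP {a b : ℕ} (P : ℕ) (h : b < a) : b * P + P ≤ a * P := by
  rw [← Nat.succ_mul]
  exact Nat.mul_le_mul_right _ h

/-- the potential -/
noncomputable def hh (q d J : ℕ) (x : ℕ → ℕ) (o : ℕ) : ℕ →₀ ℝ :=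
  zz J (fun a => x (o + a * (q + d) + q)) (fun a => x (o + a * (q + d) + (q + d - 1)))

variable {q d J : ℕ} {x x' : ℕ → ℕ} {o o' r r' : ℕ}

lemma hh_one (hx : StrictMono x) (hd : 1 ≤ d) {a k : ℕ} (ha : a < J)
    (h1 : x (o + a * (q + d) + q) ≤ k) (h2 : k < x (o + a * (q + d) + (q + d - 1))) :
    Fl k (hh q d J x o) = 1 := by
  refine Fl_zz_one ha h1 h2 fun b _ hb => ?_
  rcases lt_or_gt_of_ne hb with h | h
  · have := mulP (q + d) h
    have a1 : x (o + b * (q + d) + q) ≤ x (o + a * (q + d) + q) := hx.monotone (by omega)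
    have a2 : x (o + b * (q + d) + (q + d - 1)) ≤ x (o + a * (q + d) + q) := hx.monotone (by omega)
    omega
  · have := mulP (q + d) h
    have a1 : x (o + a * (q + d) + (q + d - 1)) ≤ x (o + b * (q + d) + q) := hx.monotone (by omega)
    have a2 : x (o + a * (q + d) + (q + d - 1)) ≤ x (o + b * (q + d) + (q + d - 1)) :=
      hx.monotone (by omega)
    omega

lemma hh_zero (hx : StrictMono x) (hd : 1 ≤ d) {a k : ℕ}
    (h1 : x (o + a * (q + d)) ≤ k) (h2 : k < x (o + a * (q + d) + (q - 1))) :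
    Fl k (hh q d J x o) = 0 := by
  refine Fl_zz_zero fun b _ => ?_
  rcases lt_or_ge b a with h | h
  · have := mulP (q + d) h
    have a1 : x (o + b * (q + d) + q) ≤ x (o + a * (q + d)) := hx.monotone (by omega)
    have a2 : x (o + b * (q + d) + (q + d - 1)) ≤ x (o + a * (q + d)) := hx.monotone (by omega)
    omega
  · have := Nat.mul_le_mul_right (q + d) h
    have a1 : x (o + a * (q + d) + (q - 1)) ≤ x (o + b * (q + d) + q) := hx.monotone (by omega)
    have a2 : x (o + a * (q + d) + (q - 1)) ≤ x (o + b * (q + d) + (q + d - 1)) :=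
      hx.monotone (by omega)
    omega

/-- a deleted span of one pattern lies inside a kept block of the other -/
lemma gap (hx : StrictMono x) (hx' : StrictMono x') (hd : 1 ≤ d) (hr : r < q) (hr' : r' < q)
    (hy : ∀ j < J * q, x (kap q d o r j) = x' (kap q d o' r' j)) {a a' : ℕ} (ha : a + 1 < J)
    (h : (r < r' ∧ a' = a + 1) ∨ (r' < r ∧ a' = a)) :
    x' (o' + a' * (q + d)) ≤ x (o + a * (q + d) + q) ∧
      x (o + a * (q + d) + (q + d - 1)) ≤ x' (o' + a' * (q + d) + (q - 1)) := by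
  obtain ⟨j, hj⟩ : ∃ j, j + 1 + r = a * q + q := ⟨a * q + q - r - 1, by omega⟩
  have e1 : (a + 1) * q = a * q + q := Nat.succ_mul _ _
  have e2 : (a + 1) * (q + d) = a * (q + d) + (q + d) := Nat.succ_mul _ _
  have e3 := mulP q ha
  obtain ⟨b, hb, hb'⟩ : ∃ b, j + r' = a' * q + b ∧ b + 1 < q := by
    rcases h with ⟨h, rfl⟩ | ⟨h, rfl⟩
    · exact ⟨r' - r - 1, by omega, by omega⟩
    · exact ⟨q + r' - r - 1, by omega, by omega⟩
  have y1 := hy j (by omega)
  have y2 := hy (j + 1) (by omega)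
  rw [kap_eq (a := a) (b := q - 1) (by omega) (by omega), kap_eq hb (by omega)] at y1
  rw [kap_eq (a := a + 1) (b := 0) (by omega) (by omega),
    kap_eq (a := a') (b := b + 1) (by omega) hb'] at y2
  have a1 : x' (o' + a' * (q + d)) ≤ x' (o' + a' * (q + d) + b) := hx'.monotone (by omega)
  have a2 : x (o + a * (q + d) + (q - 1)) ≤ x (o + a * (q + d) + q) := hx.monotone (by omega)
  have a3 : x (o + a * (q + d) + (q + d - 1)) ≤ x (o + (a + 1) * (q + d) + 0) :=
    hx.monotone (by omega)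
  have a4 : x' (o' + a' * (q + d) + (b + 1)) ≤ x' (o' + a' * (q + d) + (q - 1)) :=
    hx'.monotone (by omega)
  omega

/-- invariant before the resampling of the deleted entries -/
def InvA (q d J s : ℕ) (x : ℕ → ℕ) (o : ℕ) (T : ℕ →₀ ℝ) : Prop :=
  tot T = 0 ∧ ∀ a, 2 * s + 1 ≤ a → a + 2 * s + 1 < J →
    (∀ k, x (o + a * (q + d)) ≤ k → k < x (o + a * (q + d) + (q - 1)) → Fl k T = s) ∧
    ∃ k, x (o + a * (q + d) + q) ≤ k ∧ k < x (o + a * (q + d) + (q + d - 1)) ∧ Fl k T = -s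

/-- invariant after the resampling of the deleted entries -/
def InvB (q d J s : ℕ) (x : ℕ → ℕ) (o : ℕ) (T : ℕ →₀ ℝ) : Prop :=
  tot T = 0 ∧ ∀ a, 2 * s ≤ a → a + 2 * s < J →
    (∀ k, x (o + a * (q + d) + q) ≤ k → k < x (o + a * (q + d) + (q + d - 1)) → Fl k T = s) ∧
    ∃ k, x (o + a * (q + d)) ≤ k ∧ k < x (o + a * (q + d) + (q - 1)) ∧ Fl k T = -s

lemma invA_zero (hx : StrictMono x) (hd : 2 ≤ d) : InvA q d J 0 x o 0 :=
  ⟨by simp, fun a _ _ => ⟨fun k _ _ => by simp, _, le_rfl, hx (by omega), by simp⟩⟩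

lemma InvA.step {s : ℕ} {T : ℕ →₀ ℝ} (h : InvA q d J s x o T) (hx : StrictMono x)
    (hx' : StrictMono x') (hd : 1 ≤ d) (hr : r < q) (hr' : r' < q) (hne : r ≠ r')
    (hy : ∀ j < J * q, x (kap q d o r j) = x' (kap q d o' r' j)) :
    InvB q d J (s + 1) x' o' (T + (hh q d J x' o' - hh q d J x o)) := by
  refine ⟨by simp [h.1, hh, tot_zz], fun a' h1 h2 => ⟨fun k k1 k2 => ?_, ?_⟩⟩
  · obtain ⟨a, ha⟩ : ∃ a, (r' < r ∧ a = a' + 1) ∨ (r < r' ∧ a = a') := by
      rcases lt_or_gt_of_ne hne with h | h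
      · exact ⟨_, Or.inr ⟨h, rfl⟩⟩
      · exact ⟨_, Or.inl ⟨h, rfl⟩⟩
    obtain ⟨g1, g2⟩ := gap hx' hx hd hr' hr (fun j hj => (hy j hj).symm) (by omega) ha
    rw [map_add, map_sub, hh_one hx' hd (by omega) k1 k2,
      hh_zero hx hd (g1.trans k1) (k2.trans_le g2),
      (h.2 a (by omega) (by omega)).1 k (g1.trans k1) (k2.trans_le g2)]
    push_cast
    ring
  · obtain ⟨a, ha⟩ : ∃ a, (r < r' ∧ a' = a + 1) ∨ (r' < r ∧ a' = a) := by
      rcases lt_or_gt_of_ne hne with h | h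
      · exact ⟨a' - 1, Or.inl ⟨h, by omega⟩⟩
      · exact ⟨_, Or.inr ⟨h, rfl⟩⟩
    obtain ⟨g1, g2⟩ := gap hx hx' hd hr hr' hy (by omega) ha
    obtain ⟨k, k1, k2, k3⟩ := (h.2 a (by omega) (by omega)).2
    refine ⟨k, g1.trans k1, k2.trans_le g2, ?_⟩
    rw [map_add, map_sub, hh_one hx hd (by omega) k1 k2,
      hh_zero hx' hd (g1.trans k1) (k2.trans_le g2), k3]
    push_cast
    ring

lemma InvB.step {s : ℕ} {T : ℕ →₀ ℝ} (h : InvB q d J s x o T) (hx : StrictMono x)
    (ho : o ≤ d) (ho' : o' ≤ d) (hq : 1 ≤ q) (hne : o + q ≤ o' ∨ o' + q ≤ o) :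
    InvA q d J s x o' T := by
  refine ⟨h.1, fun a h1 h2 => ?_⟩
  obtain ⟨a, rfl⟩ : ∃ b, a = b + 1 := ⟨a - 1, by omega⟩
  have e1 : (a + 1) * (q + d) = a * (q + d) + (q + d) := Nat.succ_mul _ _
  have e2 : (a + 1 + 1) * (q + d) = (a + 1) * (q + d) + (q + d) := Nat.succ_mul _ _
  rcases hne with hne | hne
  · refine ⟨fun k k1 k2 => (h.2 (a + 1) (by omega) (by omega)).1 k
      ((hx.monotone (by omega)).trans k1) (k2.trans_le (hx.monotone (by omega))), ?_⟩
    obtain ⟨k, k1, k2, k3⟩ := (h.2 (a + 1 + 1) (by omega) (by omega)).2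
    exact ⟨k, (hx.monotone (by omega)).trans k1, k2.trans_le (hx.monotone (by omega)), k3⟩
  · refine ⟨fun k k1 k2 => (h.2 a (by omega) (by omega)).1 k
      ((hx.monotone (by omega)).trans k1) (k2.trans_le (hx.monotone (by omega))), ?_⟩
    obtain ⟨k, k1, k2, k3⟩ := (h.2 (a + 1) (by omega) (by omega)).2
    exact ⟨k, (hx.monotone (by omega)).trans k1, k2.trans_le (hx.monotone (by omega)), k3⟩

variable {N : Seminorm ℝ (ℕ →₀ ℝ)}

lemma hh_le (hm : ∀ q : ℕ → ℕ, Monotone q → ∀ μ, N (mapDomain q μ) ≤ N μ) (hx : StrictMono x)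
    (hd : 1 ≤ d) : N (hh q d (J + J) x o) ≤ 2 * N (zig J) := by
  refine zz_two_le hm J (fun a => hx.monotone (by omega)) fun a => hx.monotone ?_
  have e1 : (a + 1) * (q + d) = a * (q + d) + (q + d) := Nat.succ_mul _ _
  omega

lemma InvA.le {t : ℕ} {T : ℕ →₀ ℝ} (h : InvA q d (J + J) t x o T) (h1 : ∀ n, N (single n 1) ≤ 1)
    (hm : ∀ q : ℕ → ℕ, Monotone q → ∀ μ, N (mapDomain q μ) ≤ N μ) (hx : StrictMono x)
    (hq : 2 ≤ q) (hJ : 4 * t + 3 ≤ J) :
    2 * t * N (zig J) ≤ N T + 2 * t ∧ t * N (single 0 1 - single 1 1) ≤ N T := by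
  choose! val v1 v2 v3 using fun a (h1 : 2 * t + 1 ≤ a) (h2 : a + 2 * t + 1 < J + J) =>
    (h.2 a h1 h2).2
  constructor
  · refine end_bound h1 hm h.1 J (fun i => if i % 2 = 0 then val (2 * t + 1 + i / 2)
      else x (o + (2 * t + 1 + i / 2 + 1) * (q + d))) (Nat.cast_nonneg t) (fun i hi => ?_)
      fun i hi => ?_
    · rcases Nat.mod_two_eq_zero_or_one i with hi2 | hi2
      · have e1 : (i + 1) % 2 = 1 := by omega
        have e2 : (i + 1) / 2 = i / 2 := by omega
        simp only [hi2, e1, e2, if_true, one_ne_zero, if_false]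
        refine (v2 _ (by omega) (by omega)).trans_le (hx.monotone ?_)
        rw [Nat.succ_mul (2 * t + 1 + i / 2)]
        omega
      · have e1 : (i + 1) % 2 = 0 := by omega
        have e2 : (i + 1) / 2 = i / 2 + 1 := by omega
        simp only [hi2, e1, e2, if_true, one_ne_zero, if_false]
        refine lt_of_lt_of_le (hx ?_) (v1 _ (by omega) (by omega))
        rw [← add_assoc]
        omega
    · split_ifs with hi2
      · exact v3 _ (by omega) (by omega)
      · exact (h.2 _ (by omega) (by omega)).1 _ le_rfl (hx (by omega))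
  · have := two_pt hm h.1 (val (2 * t + 1))
    rwa [v3 _ le_rfl (by omega), abs_neg, Nat.abs_cast] at this

end Crest.Agent.R140
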