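import Crest.Agent.R140.Cover
import Crest.Agent.R140.Contract
import Crest.Agent.R140.Comb

/-!
A seminorm on finitely supported sequences that is contracted by monotone merging of coordinates and
separates two basis vectors does not have Markov type `p > 1`.
-/

set_option autoImplicit false

open Finset Finsupp Filter
open scoped BigOperators

namespace Crest.Agent.R140

theorem chain_bound (N : Seminorm ℝ (ℕ →₀ ℝ)) {p K : ℝ} (hp : 0 < p) (hK : 0 < K)
    (h1 : ∀ n, N (single n 1) ≤ 1) (hN : MarkovT N p K)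
    (hm : ∀ q : ℕ → ℕ, Monotone q → ∀ μ, N (mapDomain q μ) ≤ N μ)
    (hθ : 0 < N (single 0 1 - single 1 1)) (t : ℕ) (ht : 1 ≤ t) :
    (1 / 2) * (2 * N (single 0 1 - single 1 1) / (N (single 0 1 - single 1 1) + 2) * t
      * N (zig (4 * t + 3))) ^ p ≤ K ^ p * t * (4 * N (zig (4 * t + 3))) ^ p := by
  classical
  set θ := N (single 0 1 - single 1 1) with hθe
  set J := 4 * t + 3 with hJ
  set Z := N (zig J) with hZ
  have ht0 : (0 : ℝ) < t := by exact_mod_cast ht
  obtain ⟨q, hq⟩ : ∃ q, q = 12 * t := ⟨_, rfl⟩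
  obtain ⟨d, hd⟩ : ∃ d, d = 144 * t ^ 2 := ⟨_, rfl⟩
  have hq2 : 2 ≤ q := by omega
  have hd2 : 2 ≤ d := by nlinarith
  have : NeZero q := ⟨by omega⟩
  let A := Fin (d + 1) × Fin q
  have hA : (Fintype.card A : ℝ) = (d + 1) * q := by simp [A]
  have hq0 : (0 : ℝ) < q := by exact_mod_cast (by omega : 0 < q)
  have hA0 : (0 : ℝ) < Fintype.card A := by rw [hA]; positivity
  obtain ⟨n, hn⟩ := Finite.exists_le
    (fun z : A × Fin ((J + J) * q) => kap q d z.1.1 z.1.2 z.2 + 1)
  obtain ⟨S, _, _, φ, hφ, hc⟩ := exists_contractable n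
    (η := 1 / (12 * t) / Fintype.card A) (by positivity)
  have b1 := bad_mass (S := S) (A := A) (fun s _ => s) (η := 0) (β := 1 / (6 * t))
    (fun _ _ _ _ => by simp) (fun a a' => ¬ (a.1 + q ≤ a'.1 ∨ a'.1 + q ≤ a.1)) (fun a => by
      have h := card_le_card_of_injOn (s := univ.filter fun a' : A =>
          ¬ ((a.1 : ℕ) + q ≤ a'.1 ∨ (a'.1 : ℕ) + q ≤ a.1))
        (t := range (2 * q) ×ˢ range q) (fun a' => ((a'.1 : ℕ) + q - a.1, (a'.2 : ℕ)))
        (fun a' ha' => by
          have := a'.2.isLt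
          simp only [coe_filter, mem_univ, true_and, Set.mem_ofPred_eq, coe_product, coe_range,
            Set.mem_prod, Set.mem_Iio] at ha' ⊢
          omega)
        (fun a' ha' a'' ha'' h => by
          simp only [coe_filter, mem_univ, true_and, Set.mem_ofPred_eq, Prod.mk.injEq] at ha' ha'' h
          exact Prod.ext (Fin.ext (by omega)) (Fin.ext h.2))
      rw [card_product, card_range, card_range] at h
      have h' : ((2 * q * q : ℕ) : ℝ) ≤ 1 / (6 * t) * Fintype.card A := by
        rw [hA, hd, div_mul_eq_mul_div, le_div_iff₀ (by positivity)]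
        push_cast
        rw [hq]
        push_cast
        nlinarith
      refine le_trans ?_ h'
      exact_mod_cast (by convert h))
  have b2 := bad_mass (S := S) (A := A)
    (fun s a => fun j : Fin ((J + J) * q) => φ s (kap q d a.1 a.2 j))
    (η := 1 / (12 * t) / Fintype.card A) (β := 1 / (12 * t))
    (fun a a' g hg => hc _ _ _ (fun i j h => kap_strictMono q d a.1 a.2 h)
      (fun i j h => kap_strictMono q d a'.1 a'.2 h) (fun j => hn (a, j)) (fun j => hn (a', j)) g hg)
    (fun a a' => a.2 = a'.2) (fun a => by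
      have h := card_le_card_of_injOn (s := univ.filter fun a' : A => a.2 = a'.2)
        (t := (univ : Finset (Fin (d + 1)))) (fun a' => a'.1) (fun a' ha' => by simp)
        (fun a' ha' a'' ha'' h => by
          simp only [coe_filter, mem_univ, true_and, Set.mem_ofPred_eq] at ha' ha'' h
          exact Prod.ext h (ha'.symm.trans ha''))
      rw [card_univ, Fintype.card_fin] at h
      have h' : ((d + 1 : ℕ) : ℝ) ≤ 1 / (12 * t) * Fintype.card A := by
        rw [hA, div_mul_eq_mul_div, le_div_iff₀ (by positivity), hq]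
        push_cast
        linarith
      refine le_trans ?_ h'
      exact_mod_cast (by convert h))
  have hZ0 : 0 ≤ Z := apply_nonneg N _
  have key := cover N hp hK hN (Ω := S × A) (fun ω => ω.1)
    (fun ω => fun j : Fin ((J + J) * q) => φ ω.1 (kap q d ω.2.1 ω.2.2 j))
    (fun ω => hh q d (J + J) (φ ω.1) ω.2.1)
    (fun ω ω' => ¬ (ω.2.1 + q ≤ ω'.2.1 ∨ ω'.2.1 + q ≤ ω.2.1)) (fun ω ω' => ω.2.2 = ω'.2.2)
    (δ := 1 / (6 * t)) (D := 4 * Z) (R := 2 * θ / (θ + 2) * t * Z) (by positivity) (by positivity)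
    t ht
    (fun ω ω' _ => by
      have a1 := hh_le (q := q) (J := J) (o := ω.2.1) hm (hφ ω.1) (show 1 ≤ d by omega)
      have a2 := hh_le (q := q) (J := J) (o := ω'.2.1) hm (hφ ω'.1) (show 1 ≤ d by omega)
      linarith [map_sub_le_add N (hh q d (J + J) (φ ω'.1) ω'.2.1) (hh q d (J + J) (φ ω.1) ω.2.1)])
    (by simpa using b1)
    (by
      refine le_trans (by convert b2) (le_of_eq ?_)
      field_simp
      ring)
    (fun s ω T => InvA q d (J + J) s (φ ω.1) ω.2.1 T) (fun ω => invA_zero (hφ _) hd2)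
    (fun s _ ω ω' ω'' T hI e2 n2 e1 n1 => by
      have := (hI.step (hφ _) (hφ ω'.1) (by omega) ω.2.2.isLt ω'.2.2.isLt
        (fun h => n2 (Fin.ext h)) fun j hj => congrFun e2 ⟨j, hj⟩).step (hφ _)
        (Nat.lt_succ_iff.1 ω'.2.1.isLt) (Nat.lt_succ_iff.1 ω''.2.1.isLt) (by omega) (not_not.1 n1)
      rw [← e1]
      exact this)
    (fun ω T hI => by
      obtain ⟨a1, a2⟩ := hI.le h1 hm (hφ _) hq2 le_rfl
      rw [div_mul_eq_mul_div, div_mul_eq_mul_div, div_le_iff₀ (by positivity)]
      nlinarith)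
  convert key using 2
  field_simp
  ring

theorem no_seminorm (N : Seminorm ℝ (ℕ →₀ ℝ)) {p K : ℝ} (hp : 1 < p) (hK : 0 < K)
    (h1 : ∀ n, N (single n 1) ≤ 1) (hN : MarkovT N p K)
    (hm : ∀ q : ℕ → ℕ, Monotone q → ∀ μ, N (mapDomain q μ) ≤ N μ)
    (hθ : 0 < N (single 0 1 - single 1 1)) : False := by
  set c := 2 * N (single 0 1 - single 1 1) / (N (single 0 1 - single 1 1) + 2) with hc
  have hc0 : 0 < c := by positivity
  have lim : Tendsto (fun t : ℕ => (t : ℝ) ^ (p - 1)) atTop atTop :=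
    (tendsto_rpow_atTop (by linarith)).comp tendsto_natCast_atTop_atTop
  obtain ⟨t, ht1, ht⟩ := ((eventually_ge_atTop 1).and
    (lim.eventually_gt_atTop (2 * K ^ p * 4 ^ p / c ^ p))).exists
  have key := chain_bound N (by linarith) hK h1 hN hm hθ t ht1
  have hZ : 0 < N (zig (4 * t + 3)) := hθ.trans_le (le_zig hm (by omega))
  have ht0 : (0 : ℝ) < t := by exact_mod_cast ht1
  rw [← hc, Real.mul_rpow (by positivity) hZ.le, Real.mul_rpow hc0.le ht0.le,
    Real.mul_rpow (by norm_num) hZ.le] at key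
  rw [Real.rpow_sub_one ht0.ne', div_lt_div_iff₀ (by positivity) ht0] at ht
  have hZp : 0 < N (zig (4 * t + 3)) ^ p := by positivity
  nlinarith

end Crest.Agent.R140
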