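import Crest.Agent.R140.Norm
import Crest.Agent.R140.Contract

/-!
Resampling kernels, and the lift of a chain with a potential to a box in the abelian cover.
-/

set_option autoImplicit false

open Finset
open scoped BigOperators

namespace Crest.Agent.R140

open Classical in
/-- resampling kernel: uniform on the class of `i` -/
noncomputable def ck {Ω L : Type} [Fintype Ω] (c : Ω → L) (i j : Ω) : ℝ :=
  if c i = c j then 1 / ((Finset.univ.filter fun k => c k = c i).card : ℝ) else 0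

section ck
variable {Ω L : Type} [Fintype Ω] (c : Ω → L)

lemma ck_nonneg (i j : Ω) : 0 ≤ ck c i j := by
  unfold ck
  split_ifs <;> positivity

lemma ck_congr {i i' : Ω} (h : c i = c i') (j : Ω) : ck c i j = ck c i' j := by
  unfold ck
  rw [h]

lemma ck_symm (i j : Ω) : ck c i j = ck c j i := by
  unfold ck
  by_cases h : c i = c j
  · rw [h]
  · rw [if_neg h, if_neg (Ne.symm h)]

lemma ck_ne {i j : Ω} (h : ck c i j ≠ 0) : c i = c j := by
  by_contra hc
  exact h (if_neg hc)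

lemma ck_row (i : Ω) : ∑ j, ck c i j = 1 := by
  classical
  have : ((univ.filter fun k => c k = c i).card : ℝ) ≠ 0 := by
    exact_mod_cast (card_pos.2 ⟨i, by simp⟩).ne'
  unfold ck
  rw [← sum_filter, sum_const, nsmul_eq_mul]
  simp only [eq_comm (a := c i)]
  convert mul_one_div_cancel this

lemma ck_col (j : Ω) : ∑ i, ck c i j = 1 := by
  simp only [ck_symm c _ j, ck_row]

lemma ck_idem : Matrix.of (ck c) * Matrix.of (ck c) = Matrix.of (ck c) := by
  ext i k
  simp only [Matrix.mul_apply, Matrix.of_apply]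
  rw [← one_mul (ck c i k), ← ck_row c i, sum_mul]
  refine sum_congr rfl fun j _ => ?_
  by_cases h : ck c i j = 0
  · simp [h]
  · rw [ck_congr c (ck_ne c h) k]

end ck

open Classical in
theorem bad_mass {S A Y : Type} [Fintype S] [Nonempty S] [Fintype A] [Nonempty A]
    (y : S → A → Y) {η β : ℝ}
    (hη : ∀ (a a' : A) (g : Y → ℝ), (∀ x, 0 ≤ g x ∧ g x ≤ 1) →
      |𝔼 s, g (y s a) - 𝔼 s, g (y s a')| ≤ η)
    (B : A → A → Prop) (hB : ∀ a, ((univ.filter (B a)).card : ℝ) ≤ β * Fintype.card A) :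
    𝔼 ω : S × A, ∑ ω' : S × A,
      (if B ω.2 ω'.2 then ck (fun ω : S × A => y ω.1 ω.2) ω ω' else 0)
        ≤ β + Fintype.card A * η := by
  set c := fun ω : S × A => y ω.1 ω.2 with hc
  have hA : (0 : ℝ) < Fintype.card A := by exact_mod_cast Fintype.card_pos
  have hη0 : 0 ≤ η :=
    (abs_nonneg _).trans (hη (Classical.arbitrary A) (Classical.arbitrary A) 0 (by simp))
  let g : A → Y → ℝ := fun a' v => if h : ∃ ω, c ω = v then ∑ s', ck c h.choose (s', a') else 0
  have hg : ∀ a' ω, g a' (c ω) = ∑ s', ck c ω (s', a') := by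
    intro a' ω
    have h : ∃ ω', c ω' = c ω := ⟨ω, rfl⟩
    simp only [g, dif_pos h, ck_congr c h.choose_spec]
  have hg1 : ∀ a' v, 0 ≤ g a' v ∧ g a' v ≤ 1 := by
    intro a' v
    by_cases h : ∃ ω, c ω = v
    · obtain ⟨ω, rfl⟩ := h
      rw [hg, ← ck_row c ω, Fintype.sum_prod_type_right]
      exact ⟨sum_nonneg fun _ _ => ck_nonneg _ _ _, single_le_sum
        (f := fun a => ∑ s', ck c ω (s', a)) (fun _ _ => sum_nonneg fun _ _ => ck_nonneg _ _ _)
        (mem_univ a')⟩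
    · simp only [g, dif_neg h, le_rfl, zero_le_one, and_self]
  have h1 : ∀ a', 𝔼 a, 𝔼 s, g a' (y s a) = 1 / Fintype.card A := by
    intro a'
    rw [expect_comm, ← ex_prod (fun ω : S × A => g a' (c ω))]
    simp only [hg]
    rw [expect_sum_comm]
    simp only [Fintype.expect_eq_sum_div_card, ck_col, sum_const, card_univ, Fintype.card_prod,
      nsmul_eq_mul]
    have hS : (0 : ℝ) < Fintype.card S := by exact_mod_cast Fintype.card_pos
    push_cast
    field_simp
  have h2 : ∀ a a', 𝔼 s, g a' (y s a) ≤ 1 / Fintype.card A + η := by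
    intro a a'
    rw [← h1 a', ← Fintype.expect_const (ι := A) η, ← expect_add_distrib]
    refine le_expect univ_nonempty fun a'' _ => ?_
    linarith [(abs_le.1 (hη a a'' (g a') (hg1 a'))).2]
  rw [ex_prod, expect_comm]
  refine expect_le univ_nonempty fun a _ => ?_
  have h3 : ∀ s, ∑ ω' : S × A, (if B a ω'.2 then ck c (s, a) ω' else 0) =
      ∑ a' ∈ univ.filter (B a), g a' (y s a) := by
    intro s
    rw [Fintype.sum_prod_type_right, sum_filter]
    refine sum_congr rfl fun a' _ => ?_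
    split_ifs with h
    · exact (hg a' (s, a)).symm
    · simp
  simp only [h3]
  rw [expect_sum_comm]
  refine (sum_le_card_nsmul _ _ _ fun a' _ => h2 a a').trans ?_
  have h4 : ((univ.filter (B a)).card : ℝ) ≤ Fintype.card A := by
    exact_mod_cast card_filter_le _ _
  rw [nsmul_eq_mul, mul_add, mul_one_div]
  exact add_le_add ((div_le_iff₀ hA).2 (hB a)) (by gcongr)

/-- a substochastic part of a doubly stochastic matrix carrying most of the mass -/
structure Sub {S : Type} [Fintype S] (A P : Matrix S S ℝ) (d : ℝ) : Prop where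
  nn : ∀ i j, 0 ≤ A i j
  le : ∀ i j, A i j ≤ P i j
  row : ∀ i, ∑ j, P i j = 1
  col : ∀ j, ∑ i, P i j = 1
  mass : 1 - d ≤ 𝔼 i, ∑ j, A i j

lemma Sub.mul {S : Type} [Fintype S] [Nonempty S] {A P A' P' : Matrix S S ℝ} {d d' : ℝ}
    (h : Sub A P d) (h' : Sub A' P' d') : Sub (A * A') (P * P') (d + d') where
  nn i j := sum_nonneg fun k _ => mul_nonneg (h.nn _ _) (h'.nn _ _)
  le i j := sum_le_sum fun k _ =>
    mul_le_mul (h.le _ _) (h'.le _ _) (h'.nn _ _) ((h.nn _ _).trans (h.le _ _))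
  row i := by
    simp only [Matrix.mul_apply]
    rw [sum_comm]
    simp only [← mul_sum, h'.row, mul_one, h.row]
  col j := by
    simp only [Matrix.mul_apply]
    rw [sum_comm]
    simp only [← sum_mul, h.col, one_mul, h'.col]
  mass := by
    have e : ∀ F : S → S → ℝ, 𝔼 i, ∑ j, F i j = 𝔼 j, ∑ i, F i j := by
      intro F
      simp only [Fintype.expect_eq_sum_div_card]
      rw [sum_comm]
    have e1 : 𝔼 i, ∑ j, (A * A') i j = 𝔼 k, (∑ i, A i k) * ∑ j, A' k j := by
      simp only [Matrix.mul_apply]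
      simp only [fun i => sum_comm (s := univ) (t := univ) (f := fun j k => A i k * A' k j),
        ← mul_sum]
      rw [e]
      simp only [sum_mul]
    have e2 : 𝔼 k, ((∑ i, A i k) + ∑ j, A' k j - 1) ≤ 𝔼 k, (∑ i, A i k) * ∑ j, A' k j := by
      refine expect_le_expect fun k _ => ?_
      have a1 : ∑ i, A i k ≤ 1 := h.col k ▸ sum_le_sum fun i _ => h.le i k
      have a2 : ∑ j, A' k j ≤ 1 := h'.row k ▸ sum_le_sum fun j _ => h'.le k j
      nlinarith
    rw [expect_sub_distrib, expect_add_distrib, ← e, Fintype.expect_const] at e2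
    linarith [h.mass, h'.mass]

lemma sub_ck {S L : Type} [Fintype S] [Nonempty S] (c : S → L) :
    Sub (Matrix.of (ck c)) (Matrix.of (ck c)) 0 :=
  ⟨ck_nonneg c, fun _ _ => le_rfl, ck_row c, ck_col c, by simp [ck_row]⟩

open Classical in
/-- the good part of the lifted kernel -/
noncomputable def gk {Ω Z L M : Type} [Fintype Ω] (c : Ω → L) (B : Ω → Ω → Prop) (l : Ω → Z → M) :
    Matrix (Ω × Z) (Ω × Z) ℝ :=
  fun i j => if ¬ B i.1 j.1 ∧ l i.1 i.2 = l j.1 j.2 then ck c i.1 j.1 else 0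

open Classical in
lemma sub_gk {Ω Z L M : Type} [Fintype Ω] [Nonempty Ω] [Fintype Z] [Nonempty Z] (c : Ω → L)
    (B : Ω → Ω → Prop) (l : Ω → Z → M) (hl : ∀ ω, Function.Injective (l ω)) {δ ε : ℝ}
    (hε0 : 0 ≤ ε) (hδ : 𝔼 ω, ∑ ω', (if B ω ω' then ck c ω ω' else 0) ≤ δ)
    (hε : ∀ ω ω', 1 - ε ≤ 𝔼 z, if ∃ z', l ω z = l ω' z' then (1 : ℝ) else 0) :
    Sub (gk c B l) (Matrix.of (ck fun i : Ω × Z => (c i.1, l i.1 i.2))) (δ + ε) where
  nn i j := by
    unfold gk
    by_cases h : ¬ B i.1 j.1 ∧ l i.1 i.2 = l j.1 j.2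
    · rw [if_pos h]
      exact ck_nonneg _ _ _
    · rw [if_neg h]
  le i j := by
    unfold gk
    by_cases h : ¬ B i.1 j.1 ∧ l i.1 i.2 = l j.1 j.2
    · rw [if_pos h]
      by_cases h2 : c i.1 = c j.1
      · simp only [Matrix.of_apply, ck, h2, h.2, if_true]
        refine one_div_le_one_div_of_le (by exact_mod_cast card_pos.2 ⟨j, by simp⟩) ?_
        norm_cast
        refine card_le_card_of_injOn Prod.fst (fun k hk => ?_) fun k hk k' hk' e => ?_
        · simp only [coe_filter, mem_univ, true_and, Set.mem_ofPred_eq, Prod.mk.injEq] at hk ⊢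
          exact hk.1
        · simp only [coe_filter, mem_univ, true_and, Set.mem_ofPred_eq, Prod.mk.injEq] at hk hk'
          refine Prod.ext e (hl k.1 ?_)
          rw [hk.2, e, hk'.2]
      · rw [ck, if_neg h2, Matrix.of_apply]
        exact ck_nonneg _ _ _
    · rw [if_neg h, Matrix.of_apply]
      exact ck_nonneg _ _ _
  row := ck_row _
  col := ck_col _
  mass := by
    have h1 : ∀ ω, 1 - ε - ∑ ω', (if B ω ω' then ck c ω ω' else 0) ≤
        𝔼 z, ∑ j, gk c B l (ω, z) j := by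
      intro ω
      simp only [Fintype.sum_prod_type]
      rw [expect_sum_comm, show 1 - ε = ∑ ω', (1 - ε) * ck c ω ω' by
        rw [← mul_sum, ck_row, mul_one], ← sum_sub_distrib]
      refine sum_le_sum fun ω' _ => ?_
      have a0 := ck_nonneg c ω ω'
      by_cases hB : B ω ω'
      · simp only [gk, hB, not_true, false_and, if_false, if_true, sum_const_zero,
          Fintype.expect_const]
        nlinarith
      · simp only [gk, hB, not_false_iff, true_and, if_false, sub_zero]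
        refine (mul_le_mul_of_nonneg_right (hε ω ω') a0).trans ?_
        rw [expect_mul]
        refine expect_le_expect fun z _ => ?_
        split_ifs with h
        · obtain ⟨z', hz'⟩ := h
          refine le_trans (by simp [hz']) (single_le_sum (f := fun z' =>
            if l ω z = l ω' z' then ck c ω ω' else 0) (fun _ _ => by positivity) (mem_univ z'))
        · rw [zero_mul]
          exact sum_nonneg fun _ _ => by positivity
    have h2 := expect_le_expect (s := univ) fun ω _ => h1 ω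
    rw [expect_sub_distrib, Fintype.expect_const, ← ex_prod (fun i => ∑ j, gk c B l i j)] at h2
    linarith

lemma gk_ne {Ω Z L M : Type} [Fintype Ω] {c : Ω → L} {B : Ω → Ω → Prop} {l : Ω → Z → M}
    {i j : Ω × Z} (h : gk c B l i j ≠ 0) :
    c i.1 = c j.1 ∧ ¬ B i.1 j.1 ∧ l i.1 i.2 = l j.1 j.2 := by
  unfold gk at h
  by_cases h1 : ¬ B i.1 j.1 ∧ l i.1 i.2 = l j.1 j.2
  · rw [if_pos h1] at h
    exact ⟨ck_ne c h, h1⟩
  · exact absurd (if_neg h1) h

lemma mul_ne {S : Type} [Fintype S] {A B : Matrix S S ℝ} {i j : S} (h : (A * B) i j ≠ 0) :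
    ∃ k, A i k ≠ 0 ∧ B k j ≠ 0 := by
  obtain ⟨k, -, hk⟩ := exists_ne_zero_of_sum_ne_zero h
  exact ⟨k, mul_ne_zero_iff.1 hk⟩

open Classical in
lemma box_loss {Ω : Type} [Fintype Ω] (n : ℕ) (ω ω' : Ω) :
    1 - 2 / ((n + 1 : ℕ) : ℝ) ≤ 𝔼 z : Ω → Fin (n + 1),
      if ∃ z' : Ω → Fin (n + 1), (fun a => (z a : ℕ) + if a = ω then 0 else 1) =
        (fun a => (z' a : ℕ) + if a = ω' then 0 else 1) then (1 : ℝ) else 0 := by
  have h1 : ∀ (a : Ω) (u : Fin (n + 1)),
      𝔼 z : Ω → Fin (n + 1), (if z a = u then (1 : ℝ) else 0) = 1 / ((n + 1 : ℕ) : ℝ) := by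
    intro a u
    rw [ex_update a]
    simp
  have h2 : 1 - 2 / ((n + 1 : ℕ) : ℝ) = 𝔼 z : Ω → Fin (n + 1),
      (1 - (if z ω = 0 then (1 : ℝ) else 0) - if z ω' = Fin.last n then (1 : ℝ) else 0) := by
    rw [expect_sub_distrib, expect_sub_distrib, h1, h1, Fintype.expect_const]
    ring
  rw [h2]
  refine expect_le_expect fun z _ => ?_
  by_cases a1 : z ω = 0
  · split_ifs <;> norm_num
  by_cases a2 : z ω' = Fin.last n
  · split_ifs <;> norm_num
  have b1 : (z ω : ℕ) ≠ 0 := fun h => a1 (Fin.ext h)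
  have b2 : (z ω' : ℕ) ≠ n := fun h => a2 (Fin.ext h)
  rw [if_neg a1, if_neg a2, if_pos]
  · norm_num
  · refine ⟨fun a => ⟨(z a + if a = ω then 0 else 1) - if a = ω' then 0 else 1, ?_⟩, ?_⟩
    · have := (z a).isLt
      split_ifs with c1 c2 c2
      · omega
      · omega
      · subst c2; omega
      · omega
    · ext a
      dsimp only
      split_ifs with c1 c2 c2
      · omega
      · subst c1; omega
      · omega
      · omega

open Classical in
theorem cover (N : Seminorm ℝ (ℕ →₀ ℝ)) {p K : ℝ} (hp : 0 < p) (hK : 0 < K) (hN : MarkovT N p K)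
    {Ω L₁ L₂ : Type} [Fintype Ω] [Nonempty Ω] (c₁ : Ω → L₁) (c₂ : Ω → L₂) (H : Ω → (ℕ →₀ ℝ))
    (B₁ B₂ : Ω → Ω → Prop) {δ D R : ℝ} (hδ : 0 < δ) (hR : 0 ≤ R) (t : ℕ) (ht : 1 ≤ t)
    (hD : ∀ ω ω', c₂ ω = c₂ ω' → N (H ω' - H ω) ≤ D)
    (h₁ : 𝔼 ω, ∑ ω', (if B₁ ω ω' then ck c₁ ω ω' else 0) ≤ δ)
    (h₂ : 𝔼 ω, ∑ ω', (if B₂ ω ω' then ck c₂ ω ω' else 0) ≤ δ)
    (I : ℕ → Ω → (ℕ →₀ ℝ) → Prop) (I0 : ∀ ω, I 0 ω 0)
    (Is : ∀ s < t, ∀ ω ω' ω'' T, I s ω T → c₂ ω = c₂ ω' → ¬ B₂ ω ω' → c₁ ω' = c₁ ω'' →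
      ¬ B₁ ω' ω'' → I (s + 1) ω'' (T + (H ω' - H ω)))
    (It : ∀ ω T, I t ω T → R ≤ N T) :
    (1 - 3 * t * δ) * R ^ p ≤ K ^ p * t * D ^ p := by
  obtain ⟨n, hn⟩ := exists_nat_gt (2 / δ)
  have hn' : 2 / ((n + 1 : ℕ) : ℝ) ≤ δ := by
    rw [div_lt_iff₀ hδ] at hn
    rw [div_le_iff₀ (by positivity)]
    push_cast
    nlinarith
  let Z := Ω → Fin (n + 1)
  let l₁ : Ω → Z → Z := fun _ z => z
  let l₂ : Ω → Z → Ω → ℕ := fun ω z a => (z a : ℕ) + if a = ω then 0 else 1
  let f : Ω × Z → (ℕ →₀ ℝ) := fun i => ∑ a, ((i.2 a : ℕ) : ℝ) • H a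
  have f1 : ∀ i j : Ω × Z, l₁ i.1 i.2 = l₁ j.1 j.2 → f i = f j := fun i j h => by
    simp only [f, show i.2 = j.2 from h]
  have f2 : ∀ i j : Ω × Z, l₂ i.1 i.2 = l₂ j.1 j.2 → f j = f i + (H j.1 - H i.1) := by
    intro i j h
    have e : ∀ i : Ω × Z, ∑ a, ((l₂ i.1 i.2 a : ℕ) : ℝ) • H a = f i + ∑ a, H a - H i.1 := by
      intro i
      rw [← sum_add_distrib, eq_sub_iff_add_eq,
        show H i.1 = ∑ a, if a = i.1 then H a else 0 by simp, ← sum_add_distrib]
      refine sum_congr rfl fun a _ => ?_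
      simp only [l₂]
      split_ifs <;> simp [add_smul]
    have e1 := e i
    rw [h, e j] at e1
    linear_combination (norm := abel) e1
  have s1 := sub_gk c₁ B₁ l₁ (fun _ _ _ h => h) le_rfl h₁ (fun _ _ => by simp [l₁])
  have s2 := sub_gk c₂ B₂ l₂ (fun ω z z' h => by
    ext a
    exact Nat.add_right_cancel (congrFun h a)) (ε := 2 / ((n + 1 : ℕ) : ℝ)) (by positivity) h₂
    (fun ω ω' => by convert box_loss n ω ω')
  set P₁ := Matrix.of (ck fun i : Ω × Z => (c₁ i.1, l₁ i.1 i.2)) with hP₁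
  set P₂ := Matrix.of (ck fun i : Ω × Z => (c₂ i.1, l₂ i.1 i.2)) with hP₂
  have n1 : ∀ {i j}, P₁ i j ≠ 0 → f i = f j := fun {i j} h =>
    f1 i j (Prod.ext_iff.1 (ck_ne (fun i : Ω × Z => (c₁ i.1, l₁ i.1 i.2)) h)).2
  have n2 : ∀ {i j}, P₂ i j ≠ 0 → c₂ i.1 = c₂ j.1 ∧ l₂ i.1 i.2 = l₂ j.1 j.2 := fun {i j} h =>
    Prod.ext_iff.1 (ck_ne (fun i : Ω × Z => (c₂ i.1, l₂ i.1 i.2)) h)
  have s0 : Sub P₁ P₁ 0 := sub_ck _
  have s0' : Sub P₂ P₂ 0 := sub_ck _
  have idem : P₁ * P₁ = P₁ := ck_idem _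
  set Q := gk c₂ B₂ l₂ * gk c₁ B₁ l₁ with hQ
  have hs : ∀ s : ℕ, Sub (P₁ * Q ^ s) (P₁ * (P₂ * P₁) ^ s) (s * (3 * δ)) := by
    intro s
    induction s with
    | zero => simpa using s0
    | succ s ih =>
      have := ih.mul (s2.mul s1)
      rw [pow_succ, pow_succ, ← Matrix.mul_assoc, ← Matrix.mul_assoc P₁ _ (P₂ * P₁)]
      refine ⟨this.nn, this.le, this.row, this.col, le_trans ?_ this.mass⟩
      push_cast at hn' ⊢
      linarith
  have hpow : ∀ s : ℕ, (P₁ * P₂ * P₁) ^ (s + 1) = P₁ * (P₂ * P₁) ^ (s + 1) := by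
    intro s
    induction s with
    | zero => simp [Matrix.mul_assoc]
    | succ s ih =>
      rw [pow_succ, ih, pow_succ _ (s + 1), pow_succ _ s]
      simp only [Matrix.mul_assoc]
      rw [← Matrix.mul_assoc P₁ P₁, idem]
  have hI : ∀ s ≤ t, ∀ i j, (P₁ * Q ^ s) i j ≠ 0 → I s j.1 (f j - f i) := by
    intro s
    induction s with
    | zero =>
      intro _ i j h
      rw [pow_zero, Matrix.mul_one] at h
      rw [n1 h, sub_self]
      exact I0 _
    | succ s ih =>
      intro hst i j h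
      rw [pow_succ, ← Matrix.mul_assoc] at h
      obtain ⟨k, k1, k2⟩ := mul_ne h
      obtain ⟨m, m1, m2⟩ := mul_ne k2
      obtain ⟨a1, a2, a3⟩ := gk_ne m1
      obtain ⟨b1, b2, b3⟩ := gk_ne m2
      have := Is s (by omega) _ _ _ _ (ih (by omega) i k k1) a1 a2 b1 b2
      convert this using 1
      rw [← f1 m j b3, f2 k m a3]
      abel
  have sP := (s0.mul s0').mul s0
  have hc : (0 : ℝ) < Fintype.card (Ω × Z) := by exact_mod_cast Fintype.card_pos
  have hsym : (P₁ * P₂ * P₁).transpose = P₁ * P₂ * P₁ := by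
    have a1 : P₁.transpose = P₁ := by
      ext i j; exact ck_symm (fun i : Ω × Z => (c₁ i.1, l₁ i.1 i.2)) j i
    have a2 : P₂.transpose = P₂ := by
      ext i j; exact ck_symm (fun i : Ω × Z => (c₂ i.1, l₂ i.1 i.2)) j i
    simp only [Matrix.transpose_mul, a1, a2, Matrix.mul_assoc]
  have key := hN (Ω × Z) (fun _ => 1 / Fintype.card (Ω × Z)) (P₁ * P₂ * P₁)
    (fun _ => by positivity) (by simp [-Fintype.card_prod, hc.ne']) sP.nn sP.row
    (fun i j => by rw [← congrFun (congrFun hsym i) j, Matrix.transpose_apply]) f t ht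
  have hD0 : 0 ≤ D := by simpa using hD (Classical.arbitrary Ω) _ rfl
  have up : ∑ i, ∑ j, 1 / (Fintype.card (Ω × Z) : ℝ) * (P₁ * P₂ * P₁) i j * N (f j - f i) ^ p
      ≤ D ^ p := by
    calc _ ≤ ∑ i, ∑ j, 1 / (Fintype.card (Ω × Z) : ℝ) * (P₁ * P₂ * P₁) i j * D ^ p := by
          refine sum_le_sum fun i _ => sum_le_sum fun j _ => ?_
          by_cases h : (P₁ * P₂ * P₁) i j = 0
          · simp [h]
          obtain ⟨k, k1, k2⟩ := mul_ne h
          obtain ⟨m, m1, m2⟩ := mul_ne k1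
          have a := n2 m2
          refine mul_le_mul_of_nonneg_left (Real.rpow_le_rpow (apply_nonneg _ _) ?_ hp.le)
            (mul_nonneg (by positivity) (sP.nn i j))
          rw [← n1 k2, n1 m1, f2 m k a.2, add_sub_cancel_left]
          exact hD _ _ a.1
      _ = D ^ p := by
          simp only [← sum_mul, ← mul_sum, sP.row]
          simp [-Fintype.card_prod, hc.ne']
  have lo : (1 - 3 * t * δ) * R ^ p ≤
      ∑ i, ∑ j, 1 / (Fintype.card (Ω × Z) : ℝ) * ((P₁ * P₂ * P₁) ^ t) i j * N (f j - f i) ^ p := by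
    obtain ⟨s, rfl⟩ : ∃ s, t = s + 1 := ⟨t - 1, by omega⟩
    rw [hpow]
    calc _ ≤ (𝔼 i, ∑ j, (P₁ * Q ^ (s + 1)) i j) * R ^ p :=
          mul_le_mul_of_nonneg_right (le_trans (by linarith) (hs (s + 1)).mass) (by positivity)
      _ = ∑ i, ∑ j, 1 / (Fintype.card (Ω × Z) : ℝ) * (P₁ * Q ^ (s + 1)) i j * R ^ p := by
          simp only [← sum_mul, ← mul_sum, Fintype.expect_eq_sum_div_card]
          ring
      _ ≤ _ := by
          refine sum_le_sum fun i _ => sum_le_sum fun j _ => ?_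
          have a0 := (hs (s + 1)).nn i j
          have a1 := (hs (s + 1)).le i j
          by_cases h : (P₁ * Q ^ (s + 1)) i j = 0
          · rw [h, mul_zero, zero_mul]
            exact mul_nonneg (mul_nonneg (by positivity) (a0.trans a1)) (by positivity)
          exact mul_le_mul (mul_le_mul_of_nonneg_left a1 (by positivity))
            (Real.rpow_le_rpow hR (It _ _ (hI _ le_rfl i j h)) hp.le) (by positivity)
            (mul_nonneg (by positivity) (a0.trans a1))
  exact lo.trans (key.trans (mul_le_mul_of_nonneg_left up (by positivity)))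

end Crest.Agent.R140
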