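import Crest.Agent.R140.Renorm

set_option autoImplicit false
open Crest.AnalysisR Set Finset
open scoped ENNReal

namespace Crest.Agent.R140

variable {X : Type*} [NormedAddCommGroup X] [NormedSpace ℝ X]

/-- `x` is the mean of a finite bounded martingale of length `n` with large symmetric steps. -/
def Bush (θ : ℝ) (n : ℕ) (x : X) : Prop :=
  ∃ (ι : Type) (_ : Fintype ι) (w : ι → ℝ) (M : ι → ℕ → X), (∀ o, 0 ≤ w o) ∧ ∑ o, w o = 1 ∧
    (∀ o j, ‖M o j‖ ≤ 1) ∧ (∀ j, ∑ o, w o • M o j = x) ∧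
    ∀ (v : X) (a : ℕ → ℝ) (k : ℕ), θ * |∑ j ∈ range n, if k ≤ j then a j else 0|
      ≤ ∑ o, w o * ‖v + ∑ j ∈ range n, a j • M o j‖

lemma Bush.convex (θ : ℝ) (n : ℕ) : Convex ℝ {x : X | Bush θ n x} := by
  rintro x ⟨ι, _, w, M, h1, h2, h3, h4, h5⟩ y ⟨ι', _, w', M', h1', h2', h3', h4', h5'⟩ a b ha hb hab
  refine ⟨ι ⊕ ι', inferInstance, Sum.elim (fun o => a * w o) (fun o => b * w' o), Sum.elim M M',
    ?_, ?_, ?_, ?_, ?_⟩
  · rintro (o | o)
    · exact mul_nonneg ha (h1 o)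
    · exact mul_nonneg hb (h1' o)
  · simp [Fintype.sum_sum_type, ← mul_sum, h2, h2', hab]
  · rintro (o | o) j
    · exact h3 o j
    · exact h3' o j
  · intro j
    simp only [Fintype.sum_sum_type, Sum.elim_inl, Sum.elim_inr, mul_smul, ← smul_sum, h4, h4']
  · intro v c k
    simp only [Fintype.sum_sum_type, Sum.elim_inl, Sum.elim_inr, mul_assoc, ← mul_sum]
    have e1 := mul_le_mul_of_nonneg_left (h5 v c k) ha
    have e2 := mul_le_mul_of_nonneg_left (h5' v c k) hb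
    have : ∀ t : ℝ, t = a * t + b * t := fun t => by rw [← add_mul, hab, one_mul]
    rw [this (θ * _)]
    linarith

lemma jensen_aux {ι : Type} [Fintype ι] {w : ι → ℝ} {M : ι → ℕ → X} {x : X} (h1 : ∀ o, 0 ≤ w o)
    (h2 : ∑ o, w o = 1) (h4 : ∀ j, ∑ o, w o • M o j = x) (v : X) (a : ℕ → ℝ) (n : ℕ) :
    ‖v + (∑ j ∈ range n, a j) • x‖ ≤ ∑ o, w o * ‖v + ∑ j ∈ range n, a j • M o j‖ := by
  have : v + (∑ j ∈ range n, a j) • x = ∑ o, w o • (v + ∑ j ∈ range n, a j • M o j) := by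
    simp only [smul_add, sum_add_distrib, ← sum_smul, h2, one_smul, smul_sum]
    congr 1
    rw [sum_comm, sum_smul]
    refine sum_congr rfl fun j _ => ?_
    rw [← h4 j, smul_sum]
    exact sum_congr rfl fun o _ => smul_comm _ _ _
  rw [this]
  refine (norm_sum_le _ _).trans (le_of_eq (sum_congr rfl fun o _ => ?_))
  rw [norm_smul, Real.norm_of_nonneg (h1 o)]

lemma Bush.mid {ε : ℝ} {n : ℕ} {y z : X} (hy : Bush (ε / 2) n y) (hz : Bush (ε / 2) n z)
    (hy1 : ‖y‖ ≤ 1) (hz1 : ‖z‖ ≤ 1) (h : ε ≤ ‖y - z‖) :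
    Bush (ε / 2) (n + 1) ((1 / 2 : ℝ) • (y + z)) := by
  obtain ⟨ι, _, w, M, h1, h2, h3, h4, h5⟩ := hy
  obtain ⟨ι', _, w', M', h1', h2', h3', h4', h5'⟩ := hz
  refine ⟨ι ⊕ ι', inferInstance, Sum.elim (fun o => 1 / 2 * w o) (fun o => 1 / 2 * w' o),
    Sum.elim (fun o j => Nat.casesOn j y (M o)) (fun o j => Nat.casesOn j z (M' o)),
    ?_, ?_, ?_, ?_, ?_⟩
  · rintro (o | o)
    · exact mul_nonneg (by norm_num) (h1 o)
    · exact mul_nonneg (by norm_num) (h1' o)
  · simp only [Fintype.sum_sum_type, Sum.elim_inl, Sum.elim_inr, ← mul_sum, h2, h2']; norm_num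
  · rintro (o | o) (_ | j)
    · exact hy1
    · exact h3 o j
    · exact hz1
    · exact h3' o j
  · rintro (_ | j)
    · simp only [Fintype.sum_sum_type, Sum.elim_inl, Sum.elim_inr, mul_smul, ← smul_sum,
        ← sum_smul, h2, h2', one_smul, smul_add, Nat.rec_zero]
    · simp only [Fintype.sum_sum_type, Sum.elim_inl, Sum.elim_inr, mul_smul, ← smul_sum, h4, h4',
        smul_add]
  · intro v a k
    simp only [Fintype.sum_sum_type, Sum.elim_inl, Sum.elim_inr, mul_assoc, ← mul_sum,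
      sum_range_succ', Nat.rec_zero]
    have r1 : ∀ o, v + (∑ j ∈ range n, a (j + 1) • M o j + a 0 • y)
        = v + a 0 • y + ∑ j ∈ range n, a (j + 1) • M o j := fun o => by abel
    have r2 : ∀ o, v + (∑ j ∈ range n, a (j + 1) • M' o j + a 0 • z)
        = v + a 0 • z + ∑ j ∈ range n, a (j + 1) • M' o j := fun o => by abel
    simp only [r1, r2]
    rcases k with _ | k
    · have e1 := jensen_aux h1 h2 h4 (v + a 0 • y) (fun j => a (j + 1)) n
      have e2 := jensen_aux h1' h2' h4' (v + a 0 • z) (fun j => a (j + 1)) n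
      simp only [zero_le, if_true]
      set s := ∑ j ∈ range n, a (j + 1)
      have e3 : (v + a 0 • y + s • y) - (v + a 0 • z + s • z) = (s + a 0) • (y - z) := by
        simp only [add_smul, smul_sub]; abel
      have e4 := norm_sub_le (v + a 0 • y + s • y) (v + a 0 • z + s • z)
      rw [e3, norm_smul, Real.norm_eq_abs] at e4
      have e5 := mul_le_mul_of_nonneg_left h (abs_nonneg (s + a 0))
      linarith
    · have e1 := h5 (v + a 0 • y) (fun j => a (j + 1)) k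
      have e2 := h5' (v + a 0 • z) (fun j => a (j + 1)) k
      simp only [Nat.add_le_add_iff_right, nonpos_iff_eq_zero, Nat.succ_ne_zero, if_false,
        add_zero]
      linarith

lemma bush_of_der (ε : ℝ) : ∀ n, ∀ x ∈ Der X ε n, Bush (ε / 2) n x
  | 0 => fun x hx => ⟨Unit, inferInstance, fun _ => 1, fun _ _ => x, fun _ => zero_le_one,
      by simp, fun _ _ => Der.norm_le ε 0 x hx, by simp, fun v a k => by simp⟩
  | n + 1 => by
    refine convexHull_min ?_ (Bush.convex _ _)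
    rintro m ⟨y, hy, z, hz, h, rfl⟩
    exact (bush_of_der ε n y hy).mid (bush_of_der ε n z hz) (Der.norm_le ε n y hy)
      (Der.norm_le ε n z hz) h

/-- Markov type inequality for a functional on finitely supported sequences. -/
def MarkovT (N : (ℕ →₀ ℝ) → ℝ) (p K : ℝ) : Prop :=
  ∀ (S : Type) [Fintype S] [DecidableEq S] (w : S → ℝ) (P : Matrix S S ℝ),
    (∀ i, 0 ≤ w i) → ∑ i, w i = 1 → (∀ i j, 0 ≤ P i j) → (∀ i, ∑ j, P i j = 1) →
    (∀ i j, w i * P i j = w j * P j i) →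
    ∀ (f : S → (ℕ →₀ ℝ)) (t : ℕ), 1 ≤ t →
      ∑ i, ∑ j, w i * (P ^ t) i j * N (f j - f i) ^ p ≤
        K ^ p * t * ∑ i, ∑ j, w i * P i j * N (f j - f i) ^ p

/-- Admissible seminorms. -/
structure Adm (N : (ℕ →₀ ℝ) → ℝ) (p K : ℝ) : Prop where
  add : ∀ u v, N (u + v) ≤ N u + N v
  smul : ∀ (c : ℝ) v, N (c • v) = |c| * N v
  single : ∀ n, N (Finsupp.single n 1) ≤ 1
  markov : MarkovT N p K

theorem exists_adm {p K : ℝ} (hp : 1 < p) (hX : HasMarkovType X p K) {θ : ℝ} {n : ℕ} {x : X}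
    (h : Bush θ n x) : ∃ N, Adm N p K ∧ ∀ (v : ℕ →₀ ℝ) (k : ℕ),
      θ * |∑ j ∈ range n, if k ≤ j then v j else 0| ≤ N v := by
  obtain ⟨ι, _, w, M, h1, h2, h3, -, h5⟩ := h
  have hp0 : 0 < p := by linarith
  have : Fact (1 ≤ ENNReal.ofReal p) := ⟨by simpa using hp.le⟩
  have hpr : (ENNReal.ofReal p).toReal = p := ENNReal.toReal_ofReal hp0.le
  let L : ι → (ℕ →₀ ℝ) →ₗ[ℝ] X := fun o =>
    { toFun := fun v => ∑ j ∈ range n, v j • M o j
      map_add' := fun u v => by simp [add_smul, sum_add_distrib]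
      map_smul' := fun c v => by simp [smul_sum, mul_smul] }
  let Λ : (ℕ →₀ ℝ) →ₗ[ℝ] PiLp (ENNReal.ofReal p) (fun _ : ι => X) :=
    (WithLp.linearEquiv _ ℝ _).symm.toLinearMap ∘ₗ LinearMap.pi fun o => w o ^ (1 / p) • L o
  have hΛ : ∀ v, ‖Λ v‖ = (∑ o, w o * ‖L o v‖ ^ p) ^ (1 / p) := by
    intro v
    rw [PiLp.norm_eq_sum (by rw [hpr]; exact hp0), hpr]
    congr 1
    refine sum_congr rfl fun o _ => ?_
    have : (Λ v) o = w o ^ (1 / p) • L o v := rfl
    rw [this, norm_smul, Real.norm_of_nonneg (Real.rpow_nonneg (h1 o) _),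
      Real.mul_rpow (Real.rpow_nonneg (h1 o) _) (norm_nonneg _), ← Real.rpow_mul (h1 o),
      one_div_mul_cancel hp0.ne', Real.rpow_one]
  have hnn : ∀ v, 0 ≤ ∑ o, w o * ‖L o v‖ ^ p := fun v =>
    sum_nonneg fun o _ => mul_nonneg (h1 o) (by positivity)
  have hΛp : ∀ v, ‖Λ v‖ ^ p = ∑ o, w o * ‖L o v‖ ^ p := by
    intro v
    rw [hΛ, ← Real.rpow_mul (hnn v), one_div_mul_cancel hp0.ne', Real.rpow_one]
  refine ⟨fun v => ‖Λ v‖, ⟨fun u v => ?_, fun c v => ?_, fun m => ?_, ?_⟩, fun v k => ?_⟩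
  · rw [map_add]; exact norm_add_le _ _
  · rw [map_smul, norm_smul, Real.norm_eq_abs]
  · rw [hΛ]
    refine Real.rpow_le_one (hnn _) ?_ (by positivity)
    refine le_trans (sum_le_sum fun o _ => mul_le_of_le_one_right (h1 o) ?_) h2.le
    refine Real.rpow_le_one (norm_nonneg _) ?_ hp0.le
    show ‖∑ j ∈ range n, (Finsupp.single m (1 : ℝ)) j • M o j‖ ≤ 1
    simp only [Finsupp.single_apply, ite_smul, one_smul, zero_smul, sum_ite_eq]
    split_ifs
    · exact h3 o m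
    · simp
  · intro S _ _ u P a1 a2 a3 a4 a5 f t ht
    simp only [hΛp]
    simp only [map_sub]
    have key := sum_le_sum (s := univ) fun o _ => mul_le_mul_of_nonneg_left
      (hX S u P a1 a2 a3 a4 a5 (fun i => L o (f i)) t ht) (h1 o)
    have e : ∀ Q : Matrix S S ℝ, ∑ i, ∑ j, u i * Q i j * ∑ o, w o * ‖L o (f j) - L o (f i)‖ ^ p
        = ∑ o, w o * ∑ i, ∑ j, u i * Q i j * ‖L o (f j) - L o (f i)‖ ^ p := by
      intro Q
      simp only [mul_sum]
      rw [sum_comm (s := (univ : Finset ι))]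
      refine sum_congr rfl fun i _ => ?_
      rw [sum_comm]
      exact sum_congr rfl fun o _ => sum_congr rfl fun j _ => by ring
    rw [e, e]
    refine key.trans (le_of_eq ?_)
    rw [mul_sum]
    exact sum_congr rfl fun o _ => by ring
  · have e1 := h5 0 v k
    simp only [zero_add] at e1
    refine e1.trans ?_
    have e2 := Real.rpow_arith_mean_le_arith_mean_rpow univ w (fun o => ‖L o v‖)
      (fun o _ => h1 o) h2 (fun o _ => norm_nonneg _) hp.le
    rw [← hΛp] at e2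
    exact (Real.rpow_le_rpow_iff (sum_nonneg fun o _ => mul_nonneg (h1 o) (norm_nonneg _))
      (norm_nonneg _) hp0).1 e2

end Crest.Agent.R140
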