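import Crest.Agent.R140.Mart

set_option autoImplicit false
open Crest.AnalysisR Finset Filter Finsupp
open scoped Topology

namespace Crest.Agent.R140

variable {N : (ℕ →₀ ℝ) → ℝ} {p K : ℝ}

lemma Adm.zero (h : Adm N p K) : N 0 = 0 := by simpa using h.smul 0 0

lemma Adm.neg (h : Adm N p K) (v : ℕ →₀ ℝ) : N (-v) = N v := by simpa using h.smul (-1) v

lemma Adm.nonneg (h : Adm N p K) (v : ℕ →₀ ℝ) : 0 ≤ N v := by
  have := h.add v (-v)
  rw [add_neg_cancel, h.zero, h.neg] at this
  linarith

lemma Adm.sum_le (h : Adm N p K) {ι : Type*} (s : Finset ι) (g : ι → (ℕ →₀ ℝ)) :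
    N (∑ i ∈ s, g i) ≤ ∑ i ∈ s, N (g i) := by
  classical
  induction s using Finset.induction_on with
  | empty => simp [h.zero]
  | insert a s ha ih =>
    rw [sum_insert ha, sum_insert ha]
    exact (h.add _ _).trans (by linarith)

lemma Adm.lc_le (h : Adm N p K) (g : ℕ → (ℕ →₀ ℝ)) (v : ℕ →₀ ℝ) :
    N (linearCombination ℝ g v) ≤ ∑ i ∈ v.support, |v i| * N (g i) := by
  rw [linearCombination_apply, Finsupp.sum]
  exact (h.sum_le _ _).trans (le_of_eq (sum_congr rfl fun i _ => h.smul _ _))

lemma Adm.abs_le (h : Adm N p K) (v : ℕ →₀ ℝ) : |N v| ≤ ∑ i ∈ v.support, |v i| := by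
  rw [abs_of_nonneg (h.nonneg v)]
  have := h.lc_le (fun i => Finsupp.single i 1) v
  have e : linearCombination ℝ (fun i => Finsupp.single i (1 : ℝ)) v = v := by
    rw [linearCombination_apply]
    simp
  rw [e] at this
  exact this.trans (sum_le_sum fun i _ => mul_le_of_le_one_right (abs_nonneg _) (h.single i))

lemma Adm.comp (h : Adm N p K) (T : (ℕ →₀ ℝ) →ₗ[ℝ] (ℕ →₀ ℝ))
    (hT : ∀ n, N (T (Finsupp.single n 1)) ≤ 1) :
    Adm (fun v => N (T v)) p K where
  add u v := by rw [map_add]; exact h.add _ _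
  smul c v := by rw [map_smul]; exact h.smul _ _
  single := hT
  markov := by
    intro S _ _ w P a1 a2 a3 a4 a5 f t ht
    simp only [map_sub]
    exact h.markov S w P a1 a2 a3 a4 a5 (fun i => T (f i)) t ht

lemma Adm.mapD (h : Adm N p K) (r : ℕ → ℕ) : Adm (fun v => N (mapDomain r v)) p K :=
  h.comp (lmapDomain ℝ ℝ r) fun n => by simpa using h.single (r n)

/-- limit along the hyperfilter -/
noncomputable def ulim (g : ℕ → ℝ) : ℝ := limUnder (hyperfilter ℕ) g

lemma tendsto_ulim {g : ℕ → ℝ} {C : ℝ} (h : ∀ n, |g n| ≤ C) :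
    Tendsto g (hyperfilter ℕ) (𝓝 (ulim g)) := by
  obtain ⟨x, -, hx⟩ := (isCompact_Icc (a := -C) (b := C)).ultrafilter_le_nhds'
    ((hyperfilter ℕ).map g) (by
      rw [Ultrafilter.mem_map]
      exact univ_mem' fun n => abs_le.1 (h n))
  exact tendsto_nhds_limUnder ⟨x, hx⟩

lemma ev_hyper {q : ℕ → Prop} (h : ∀ᶠ n in atTop, q n) : ∀ᶠ n in (hyperfilter ℕ : Filter ℕ), q n :=
  Nat.hyperfilter_le_atTop h

lemma ulim_eq {g : ℕ → ℝ} {c : ℝ} (h : ∀ᶠ n in atTop, g n = c) : ulim g = c :=
  Tendsto.limUnder_eq (tendsto_const_nhds.congr' ((ev_hyper h).mono fun _ h => h.symm))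

lemma Adm.tendsto {M : ℕ → (ℕ →₀ ℝ) → ℝ} (h : ∀ n, Adm (M n) p K) (v : ℕ →₀ ℝ) :
    Tendsto (fun n => M n v) (hyperfilter ℕ) (𝓝 (ulim fun n => M n v)) :=
  tendsto_ulim fun n => (h n).abs_le v

lemma adm_ulim (hp : 0 ≤ p) {M : ℕ → (ℕ →₀ ℝ) → ℝ} (h : ∀ n, Adm (M n) p K) :
    Adm (fun v => ulim fun n => M n v) p K where
  add u v := le_of_tendsto_of_tendsto' (Adm.tendsto h (u + v))
    ((Adm.tendsto h u).add (Adm.tendsto h v)) fun n => (h n).add u v
  smul c v := tendsto_nhds_unique (Adm.tendsto h (c • v))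
    (((Adm.tendsto h v).const_mul |c|).congr fun n => ((h n).smul c v).symm)
  single m := le_of_tendsto' (Adm.tendsto h _) fun n => (h n).single m
  markov := by
    intro S _ _ w P a1 a2 a3 a4 a5 f t ht
    have key : ∀ Q : Matrix S S ℝ, Tendsto (fun n => ∑ i, ∑ j, w i * Q i j * M n (f j - f i) ^ p)
        (hyperfilter ℕ) (𝓝 (∑ i, ∑ j, w i * Q i j * (ulim fun n => M n (f j - f i)) ^ p)) :=
      fun Q => tendsto_finsetSum _ fun i _ => tendsto_finsetSum _ fun j _ =>
        (((Real.continuous_rpow_const hp).tendsto _).comp (Adm.tendsto h _)).const_mul _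
    exact le_of_tendsto_of_tendsto' (key _) ((key _).const_mul _)
      fun n => (h n).markov S w P a1 a2 a3 a4 a5 f t ht

/-- send the first coordinate far away, shift the others down -/
def rr (k i : ℕ) : ℕ → ℕ
  | 0 => k + i
  | j + 1 => j

/-- iterated limits -/
noncomputable def It (N : (ℕ →₀ ℝ) → ℝ) : ℕ → (ℕ →₀ ℝ) → ℝ
  | 0 => N
  | k + 1 => fun v => ulim fun i => It N k (mapDomain (rr k i) v)

lemma Adm.it (hp : 0 ≤ p) (h : Adm N p K) : ∀ k, Adm (It N k) p K
  | 0 => h
  | k + 1 => adm_ulim hp fun i => (Adm.it hp h k).mapD (rr k i)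

/-- skip the value `j` -/
def sk (j n : ℕ) : ℕ := if n < j then n else n + 1

lemma it_sk : ∀ (k j : ℕ), j ≤ k → ∀ v, It N (k + 1) (mapDomain (sk j) v) = It N k v := by
  have h0 : ∀ k v, It N (k + 1) (mapDomain (sk 0) v) = It N k v := by
    intro k v
    refine ulim_eq (Eventually.of_forall fun i => ?_)
    rw [← mapDomain_comp]
    have : rr k i ∘ sk 0 = id := by ext n; simp [sk, rr]
    rw [this, mapDomain_id]
  intro k
  induction k with
  | zero =>
    intro j hj v
    obtain rfl : j = 0 := by omega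
    exact h0 0 v
  | succ k ih =>
    intro j hj v
    rcases j with _ | j
    · exact h0 _ v
    · show (ulim fun i => It N (k + 1) _) = ulim fun i => It N k _
      congr 1
      ext i
      rw [← ih j (by omega), ← mapDomain_comp, ← mapDomain_comp]
      congr 2
      ext n
      rcases n with _ | n
      · have h1 : ¬ k + i < j := by omega
        simp only [Function.comp, sk, rr, Nat.zero_lt_succ, if_true, h1, if_false]
        omega
      · by_cases h1 : n < j
        · simp [Function.comp, sk, rr, h1]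
        · simp [Function.comp, sk, rr, h1]

/-- the spreading seminorm -/
noncomputable def Sp (N : (ℕ →₀ ℝ) → ℝ) (v : ℕ →₀ ℝ) : ℝ := ulim fun k => It N k v

lemma exists_bound (v : ℕ →₀ ℝ) : ∃ k, ∀ i ∈ v.support, i < k :=
  ⟨v.support.sup id + 1, fun i hi => Nat.lt_succ_of_le (le_sup (f := id) hi)⟩

lemma sp_eq {v : ℕ →₀ ℝ} {k : ℕ} (h : ∀ i ∈ v.support, i < k) : Sp N v = It N k v := by
  refine ulim_eq (eventually_atTop.2 ⟨k, fun m hm => ?_⟩)
  induction m, hm using Nat.le_induction with
  | base => rfl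
  | succ m hm ih =>
    rw [← ih, ← it_sk m m le_rfl v]
    congr 1
    conv_lhs => rw [← mapDomain_id (v := v)]
    refine mapDomain_congr fun i hi => ?_
    have := h i hi
    simp only [sk, id]
    split_ifs <;> omega

lemma sp_sk (j : ℕ) (v : ℕ →₀ ℝ) : Sp N (mapDomain (sk j) v) = Sp N v := by
  classical
  obtain ⟨k, hk⟩ := exists_bound v
  rw [sp_eq (k := max k j + 1), sp_eq (k := max k j), it_sk _ _ (le_max_right _ _)]
  · intro i hi; exact (hk i hi).trans_le (le_max_left _ _)
  · intro i hi
    obtain ⟨a, ha, rfl⟩ := mem_image.1 (mapDomain_support hi)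
    have := hk a ha
    simp only [sk]
    split_ifs <;> omega

lemma sp_strictMono (v : ℕ →₀ ℝ) {σ : ℕ → ℕ} (hσ : StrictMono σ) :
    Sp N (mapDomain σ v) = Sp N v := by
  obtain ⟨k, hk⟩ := exists_bound v
  induction hm : σ k using Nat.strong_induction_on generalizing σ with
  | _ m ih =>
    by_cases h : ∃ j, j ≤ k ∧ σ j ≠ j
    · classical
      set j := Nat.find h with hj
      obtain ⟨hjk, hjne⟩ := Nat.find_spec h
      rw [← hj] at hjk hjne
      have hlt : ∀ i < j, σ i = i := fun i hi => by
        have := Nat.find_min h (hj ▸ hi)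
        by_contra hc
        exact this ⟨by omega, hc⟩
      have hge : ∀ i, j ≤ i → j < σ i := fun i hi => by
        have h1 := hσ.monotone hi
        have h2 := hσ.id_le j
        simp only [id] at h2
        omega
      set σ' : ℕ → ℕ := fun i => if i < j then i else σ i - 1 with hσ'
      have h1 : StrictMono σ' := by
        intro a b hab
        have := hσ hab
        simp only [hσ']
        split_ifs with ha hb hb
        · exact hab
        · have := hge b (by omega); omega
        · omega
        · have := hge a (by omega); omega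
      have h2 : σ = sk j ∘ σ' := by
        ext i
        simp only [Function.comp, hσ', sk]
        by_cases hi : i < j
        · simp [hi, hlt i hi]
        · have := hge i (by omega)
          simp only [hi, if_false]
          split_ifs <;> omega
      have h3 : σ' k < m := by
        have := hge k hjk
        simp only [hσ']
        split_ifs <;> omega
      rw [h2, mapDomain_comp, sp_sk]
      exact ih _ h3 h1 rfl
    · congr 1
      conv_rhs => rw [← mapDomain_id (v := v)]
      refine mapDomain_congr fun i hi => ?_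
      by_contra hc
      exact h ⟨i, (hk i hi).le, hc⟩

lemma it_lower (hp : 0 ≤ p) (h : Adm N p K) {θ : ℝ}
    (hl : ∀ v m, θ * |linearCombination ℝ (fun j => if m ≤ j then (1 : ℝ) else 0) v| ≤ N v) :
    ∀ k c, c ≤ k → ∀ v,
      θ * |linearCombination ℝ (fun j => if c ≤ j ∧ j < k then (1 : ℝ) else 0) v| ≤ It N k v := by
  have hA : ∀ k m v, θ * |linearCombination ℝ
      (fun j => if j < k ∨ k + m ≤ j then (1 : ℝ) else 0) v| ≤ It N k v := by
    intro k
    induction k with
    | zero => intro m v; simpa [It] using hl v m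
    | succ k ih =>
      intro m v
      refine ge_of_tendsto (Adm.tendsto (fun i => (h.it hp k).mapD (rr k i)) v)
        (ev_hyper (eventually_atTop.2 ⟨m, fun i hi => ?_⟩))
      have := ih m (mapDomain (rr k i) v)
      rw [linearCombination_mapDomain] at this
      have e : (fun j => if j < k + 1 ∨ k + 1 + m ≤ j then (1 : ℝ) else 0)
          = (fun j => if j < k ∨ k + m ≤ j then (1 : ℝ) else 0) ∘ rr k i := by
        funext j
        rcases j with _ | j
        · exact if_congr (by simp only [rr]; omega) rfl rfl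
        · exact if_congr (by simp only [rr]; omega) rfl rfl
      rw [e]
      exact this
  intro k
  induction k with
  | zero =>
    intro c _ v
    simpa [linearCombination_apply] using (h.it hp 0).nonneg v
  | succ k ih =>
    intro c hc v
    rcases c with _ | c
    · obtain ⟨m, hm⟩ := exists_bound v
      have := hA (k + 1) m v
      convert this using 3
      simp only [linearCombination_apply]
      refine Finsupp.sum_congr fun i hi => ?_
      have := hm i hi
      split_ifs <;> first | rfl | omega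
    · refine ge_of_tendsto' (Adm.tendsto (fun i => (h.it hp k).mapD (rr k i)) v) fun i => ?_
      have := ih c (by omega) (mapDomain (rr k i) v)
      rw [linearCombination_mapDomain] at this
      have e : (fun j => if c + 1 ≤ j ∧ j < k + 1 then (1 : ℝ) else 0)
          = (fun j => if c ≤ j ∧ j < k then (1 : ℝ) else 0) ∘ rr k i := by
        funext j
        rcases j with _ | j
        · exact if_congr (by simp only [rr]; omega) rfl rfl
        · exact if_congr (by simp only [rr]; omega) rfl rfl
      rw [e]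
      exact this

/-- normalised block -/
noncomputable def blk (L a : ℕ) : ℕ →₀ ℝ :=
  ((L + 1 : ℕ) : ℝ)⁻¹ • ∑ c ∈ range (L + 1), single (a + c) (1 : ℝ)

lemma Adm.blk_le (h : Adm N p K) (L a : ℕ) : N (blk L a) ≤ 1 := by
  rw [blk, h.smul, abs_of_nonneg (by positivity), inv_mul_le_iff₀ (by positivity)]
  refine (h.sum_le _ _).trans ((sum_le_sum fun c _ => h.single _).trans ?_)
  simp

lemma Adm.blk_sub (h : Adm N p K) (L a i : ℕ) :
    N (blk L a - blk L (a + i)) ≤ 2 * i * ((L + 1 : ℕ) : ℝ)⁻¹ := by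
  induction i with
  | zero => simp [h.zero]
  | succ i ih =>
    have e : blk L a - blk L (a + (i + 1)) = (blk L a - blk L (a + i))
        + ((L + 1 : ℕ) : ℝ)⁻¹ • (Finsupp.single (a + i) (1 : ℝ) + -Finsupp.single (a + i + (L + 1)) 1) := by
      have h1 := sum_range_succ (fun c => Finsupp.single (a + i + c) (1 : ℝ)) (L + 1)
      have h2 := sum_range_succ' (fun c => Finsupp.single (a + i + c) (1 : ℝ)) (L + 1)
      have h3 : ∑ c ∈ range (L + 1), Finsupp.single (a + (i + 1) + c) (1 : ℝ)
          = ∑ c ∈ range (L + 1), Finsupp.single (a + i + (c + 1)) (1 : ℝ) :=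
        sum_congr rfl fun c _ => by congr 1; ring
      have h4 : ∑ c ∈ range (L + 1), Finsupp.single (a + (i + 1) + c) (1 : ℝ)
          = ∑ c ∈ range (L + 1), Finsupp.single (a + i + c) (1 : ℝ)
            - (Finsupp.single (a + i) (1 : ℝ) + -Finsupp.single (a + i + (L + 1)) 1) := by
        rw [h3, eq_sub_of_add_eq (h2.symm.trans h1), add_zero]; abel
      simp only [blk]
      rw [h4, smul_sub]; abel
    rw [e]
    refine (h.add _ _).trans ?_
    rw [h.smul, abs_of_nonneg (by positivity)]
    have h1 := h.add (Finsupp.single (a + i) (1 : ℝ)) (-Finsupp.single (a + i + (L + 1)) 1)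
    rw [h.neg] at h1
    have h2 := h.single (a + i)
    have h3 := h.single (a + i + (L + 1))
    have h4 : ((L + 1 : ℕ) : ℝ)⁻¹ * N (Finsupp.single (a + i) (1 : ℝ) + -Finsupp.single (a + i + (L + 1)) 1)
        ≤ ((L + 1 : ℕ) : ℝ)⁻¹ * 2 := by gcongr; linarith
    push_cast at *
    linarith

/-- replace every coordinate by a long block -/
noncomputable def TT (L : ℕ) : (ℕ →₀ ℝ) →ₗ[ℝ] (ℕ →₀ ℝ) :=
  linearCombination ℝ fun j => blk L (j * (L + 1))

lemma avg_le (h : Adm N p K) (hs : ∀ v (σ : ℕ → ℕ), StrictMono σ → N (mapDomain σ v) = N v)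
    {q : ℕ → ℕ} (hq : Monotone q) (v : ℕ →₀ ℝ) (L : ℕ) :
    N (TT L (mapDomain q v)) ≤ N v + (∑ i ∈ v.support, |v i| * (2 * i)) * ((L + 1 : ℕ) : ℝ)⁻¹ := by
  have e1 : TT L (mapDomain q v) = linearCombination ℝ (fun i => blk L (q i * (L + 1) + i)) v
      + linearCombination ℝ (fun i => blk L (q i * (L + 1)) - blk L (q i * (L + 1) + i)) v := by
    rw [TT, linearCombination_mapDomain]
    simp only [linearCombination_apply, Finsupp.sum, ← sum_add_distrib, ← smul_add]
    exact sum_congr rfl fun i _ => by simp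
  have e2 : linearCombination ℝ (fun i => blk L (q i * (L + 1) + i)) v
      = ((L + 1 : ℕ) : ℝ)⁻¹ • ∑ c ∈ range (L + 1), mapDomain (fun i => q i * (L + 1) + i + c) v := by
    simp only [linearCombination_apply, Finsupp.sum, blk, mapDomain, Finset.smul_sum]
    rw [Finset.sum_comm]
    refine sum_congr rfl fun c _ => sum_congr rfl fun i _ => ?_
    rw [smul_comm]; simp
  rw [e1]
  refine (h.add _ _).trans (add_le_add ?_ ?_)
  · rw [e2, h.smul, abs_of_nonneg (by positivity), inv_mul_le_iff₀ (by positivity)]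
    refine (h.sum_le _ _).trans (le_of_eq ?_)
    rw [sum_congr rfl fun c _ => hs v _ (fun a b hab => by
      have := Nat.mul_le_mul_right (L + 1) (hq hab.le)
      show q a * (L + 1) + a + c < q b * (L + 1) + b + c
      omega)]
    simp
  · refine (h.lc_le _ _).trans ?_
    rw [Finset.sum_mul]
    refine sum_le_sum fun i _ => ?_
    rw [mul_assoc]
    exact mul_le_mul_of_nonneg_left (h.blk_sub L _ i) (abs_nonneg _)

lemma div_TT (L : ℕ) (v : ℕ →₀ ℝ) : mapDomain (fun i => i / (L + 1)) (TT L v) = v := by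
  have : (lmapDomain ℝ ℝ fun i => i / (L + 1)) ∘ₗ TT L = LinearMap.id := by
    refine lhom_ext' fun j => LinearMap.ext_ring ?_
    simp only [LinearMap.comp_apply, lsingle_apply, TT, linearCombination_single, one_smul, blk,
      map_smul, map_sum, lmapDomain_apply, mapDomain_single, LinearMap.id_apply]
    rw [sum_congr rfl (g := fun _ => single j (1 : ℝ)) fun c hc => by
      rw [mul_comm, Nat.mul_add_div (by omega), Nat.div_eq_of_lt (mem_range.1 hc), add_zero]]
    rw [sum_const, card_range, ← Nat.cast_smul_eq_nsmul ℝ, smul_smul,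
      inv_mul_cancel₀ (by positivity), one_smul]
  exact LinearMap.congr_fun this v

theorem exists_seminorm (X : Type*) [NormedAddCommGroup X] [NormedSpace ℝ X] (p K : ℝ)
    (hp : 1 < p) (hX : HasMarkovType X p K) (h : ¬ HasEquivUniformlyConvexNorm X) :
    ∃ N : Seminorm ℝ (ℕ →₀ ℝ), (∀ n, N (Finsupp.single n 1) ≤ 1) ∧ MarkovT N p K ∧
      (∀ q : ℕ → ℕ, Monotone q → ∀ μ, N (Finsupp.mapDomain q μ) ≤ N μ) ∧
      0 < N (Finsupp.single 0 1 - Finsupp.single 1 1) := by
  have hp0 : 0 ≤ p := by linarith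
  have h1 : ∃ ε : ℝ, 0 < ε ∧ ∀ n, (Der X ε n).Nonempty := by
    by_contra hc
    push Not at hc
    exact h (renorm_of_der hc)
  obtain ⟨ε, hε, hne⟩ := h1
  choose x hx using hne
  choose M hM hMl using fun n => exists_adm hp hX (bush_of_der ε n (x n) (hx n))
  have a1 := adm_ulim hp0 hM
  set N1 : (ℕ →₀ ℝ) → ℝ := fun v => ulim fun n => M n v
  have l1 : ∀ v m, ε / 2 * |linearCombination ℝ (fun j => if m ≤ j then (1 : ℝ) else 0) v|
      ≤ N1 v := by
    intro v m
    obtain ⟨k, hk⟩ := exists_bound v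
    refine ge_of_tendsto (Adm.tendsto hM v) (ev_hyper (eventually_atTop.2 ⟨k, fun n hn => ?_⟩))
    have e : linearCombination ℝ (fun j => if m ≤ j then (1 : ℝ) else 0) v
        = ∑ j ∈ range n, if m ≤ j then v j else 0 := by
      rw [linearCombination_apply, Finsupp.sum_of_support_subset (s := range n)]
      · simp
      · intro i hi; exact mem_range.2 ((hk i hi).trans_le hn)
      · simp
    rw [e]
    exact hMl n v m
  have a2 : Adm (Sp N1) p K := adm_ulim hp0 (a1.it hp0)
  have a3 : ∀ L, Adm (fun v => Sp N1 (TT L v)) p K := fun L => a2.comp (TT L) fun n => by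
    simpa [TT] using a2.blk_le L _
  have a4 := adm_ulim hp0 a3
  set N3 : (ℕ →₀ ℝ) → ℝ := fun v => ulim fun L => Sp N1 (TT L v)
  have key : ∀ (q : ℕ → ℕ), Monotone q → ∀ v, N3 (mapDomain q v) ≤ Sp N1 v := by
    intro q hq v
    have t1 : Tendsto (fun L : ℕ => Sp N1 v
        + (∑ i ∈ v.support, |v i| * (2 * i)) * ((L + 1 : ℕ) : ℝ)⁻¹) (hyperfilter ℕ)
        (𝓝 (Sp N1 v + (∑ i ∈ v.support, |v i| * (2 * i)) * 0)) := by
      refine Tendsto.mono_left ?_ Nat.hyperfilter_le_atTop
      exact (((tendsto_inv_atTop_nhds_zero_nat (𝕜 := ℝ)).comp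
        (tendsto_add_atTop_nat 1)).const_mul _).const_add _
    rw [mul_zero, add_zero] at t1
    exact le_of_tendsto_of_tendsto' (Adm.tendsto a3 _) t1
      fun L => avg_le a2 (fun v σ hσ => sp_strictMono v hσ) hq v L
  refine ⟨Seminorm.of N3 a4.add (fun c v => by rw [a4.smul, Real.norm_eq_abs]), a4.single,
    a4.markov, fun q hq μ => ?_, ?_⟩
  · refine ge_of_tendsto' (Adm.tendsto a3 μ) fun L => ?_
    have := key (q ∘ fun i => i / (L + 1))
      (hq.comp fun a b hab => Nat.div_le_div_right hab) (TT L μ)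
    rwa [mapDomain_comp, div_TT] at this
  · refine lt_of_lt_of_le (half_pos hε) (ge_of_tendsto' (Adm.tendsto a3 _) fun L => ?_)
    obtain ⟨k, hk⟩ := exists_bound (TT L (single 0 1 - single 1 1))
    rw [sp_eq (k := max k (2 * (L + 1))) fun i hi => (hk i hi).trans_le (le_max_left _ _)]
    have := it_lower hp0 a1 l1 (max k (2 * (L + 1))) (L + 1) (by omega)
      (TT L (single 0 1 - single 1 1))
    have e : linearCombination ℝ
        (fun j => if L + 1 ≤ j ∧ j < max k (2 * (L + 1)) then (1 : ℝ) else 0)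
        (TT L (single 0 1 - single 1 1)) = -1 := by
      simp only [TT, map_sub, linearCombination_single, one_smul, blk, map_smul, map_sum,
        smul_eq_mul, one_mul]
      have e0 : ∑ c ∈ range (L + 1), (if L + 1 ≤ 0 * (L + 1) + c ∧
          0 * (L + 1) + c < max k (2 * (L + 1)) then (1 : ℝ) else 0) = 0 :=
        sum_eq_zero fun c hc => by
          have := mem_range.1 hc
          rw [if_neg (by omega)]
      have e1 : ∑ c ∈ range (L + 1), (if L + 1 ≤ L + 1 + c ∧
          L + 1 + c < max k (2 * (L + 1)) then (1 : ℝ) else 0) = ((L + 1 : ℕ) : ℝ) := by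
        rw [sum_congr rfl (g := fun _ => (1 : ℝ)) fun c hc => by
          have := mem_range.1 hc
          rw [if_pos (by omega)]]
        simp
      rw [e0, e1, inv_mul_cancel₀ (by positivity)]
      simp
    rw [e, abs_neg, abs_one, mul_one] at this
    exact this

end Crest.Agent.R140
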