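import Mathlib
import Crest.Prelude.Def_MarkovType

set_option autoImplicit false
open Crest.AnalysisR Metric Set Finset
open scoped Pointwise Topology

namespace Crest.Agent.R140

variable {X : Type*} [NormedAddCommGroup X] [NormedSpace ℝ X]

/-- Iterated midpoint derivation of the unit ball. -/
def Der (X : Type*) [NormedAddCommGroup X] [NormedSpace ℝ X] (ε : ℝ) : ℕ → Set X
  | 0 => closedBall 0 1
  | n + 1 => convexHull ℝ {m | ∃ y ∈ Der X ε n, ∃ z ∈ Der X ε n, ε ≤ ‖y - z‖ ∧
      m = (1 / 2 : ℝ) • (y + z)}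

lemma Der.convex (ε : ℝ) : ∀ n, Convex ℝ (Der X ε n)
  | 0 => convex_closedBall _ _
  | _ + 1 => convex_convexHull _ _

lemma Der.norm_le (ε : ℝ) : ∀ n, ∀ x ∈ Der X ε n, ‖x‖ ≤ 1
  | 0 => fun x hx => by simpa [Der] using hx
  | n + 1 => by
    have : Der X ε (n + 1) ⊆ closedBall 0 1 := by
      refine convexHull_min ?_ (convex_closedBall _ _)
      rintro m ⟨y, hy, z, hz, -, rfl⟩
      rw [mem_closedBall_zero_iff, norm_smul]
      have := norm_add_le y z
      have := Der.norm_le ε n y hy
      have := Der.norm_le ε n z hz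
      norm_num
      linarith
    intro x hx
    simpa using this hx

lemma Der.neg_mem (ε : ℝ) : ∀ n, ∀ x ∈ Der X ε n, -x ∈ Der X ε n
  | 0 => fun x hx => by simpa [Der] using hx
  | n + 1 => by
    have : Der X ε (n + 1) ⊆ -Der X ε (n + 1) := by
      refine convexHull_min ?_ (Der.convex ε (n + 1)).neg
      rintro m ⟨y, hy, z, hz, h, rfl⟩
      refine subset_convexHull _ _ ⟨-y, Der.neg_mem ε n y hy, -z, Der.neg_mem ε n z hz, ?_, ?_⟩
      · rwa [neg_sub_neg, norm_sub_rev]
      · simp only [smul_add, smul_neg, neg_add]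
    intro x hx
    exact this hx

lemma Der.infDist_le (ε : ℝ) (n : ℕ) (x : X) : infDist x (Der X ε n) ≤ ‖x‖ := by
  rcases (Der X ε n).eq_empty_or_nonempty with h | ⟨y, hy⟩
  · simp [h]
  · have h0 : (0 : X) ∈ Der X ε n := by
      have := Der.convex ε n hy (Der.neg_mem ε n y hy) (a := 1 / 2) (b := 1 / 2) (by norm_num)
        (by norm_num) (by norm_num)
      simpa using this
    simpa using infDist_le_dist_of_mem (x := x) h0

lemma Der.infDist_neg (ε : ℝ) (n : ℕ) (x : X) :
    infDist (-x) (Der X ε n) = infDist x (Der X ε n) := by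
  have key : ∀ x : X, infDist (-x) (Der X ε n) ≤ infDist x (Der X ε n) := by
    intro x
    rcases (Der X ε n).eq_empty_or_nonempty with h | h
    · simp [h]
    · refine (le_infDist h).2 fun y hy => ?_
      rw [← dist_neg_neg]
      exact infDist_le_dist_of_mem (Der.neg_mem ε n y hy)
  exact le_antisymm (key x) (by simpa using key (-x))

lemma infDist_convex {C : Set X} (hC : Convex ℝ C) (x y : X) {a b : ℝ} (ha : 0 ≤ a) (hb : 0 ≤ b)
    (hab : a + b = 1) : infDist (a • x + b • y) C ≤ a * infDist x C + b * infDist y C := by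
  rcases C.eq_empty_or_nonempty with h | h
  · simp [h]
  refine le_of_forall_pos_le_add fun η hη => ?_
  obtain ⟨x', hx', hx⟩ := (infDist_lt_iff h).1 (lt_add_of_pos_right (infDist x C) hη)
  obtain ⟨y', hy', hy⟩ := (infDist_lt_iff h).1 (lt_add_of_pos_right (infDist y C) hη)
  refine (infDist_le_dist_of_mem (hC hx' hy' ha hb hab)).trans ?_
  refine (dist_add_add_le _ _ _ _).trans ?_
  rw [dist_smul₀, dist_smul₀, Real.norm_of_nonneg ha, Real.norm_of_nonneg hb]
  have h1 := mul_le_mul_of_nonneg_left hx.le ha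
  have h2 := mul_le_mul_of_nonneg_left hy.le hb
  have : a * η + b * η = η := by rw [← add_mul, hab, one_mul]
  linarith

lemma Der.defect {ε : ℝ} (hε : 0 < ε) {N : ℕ} (hN : Der X ε N = ∅) {x y : X} (hx : ‖x‖ ≤ 1)
    (hy : ‖y‖ ≤ 1) (hxy : 2 * ε ≤ ‖x - y‖) :
    ∃ n < N, infDist ((1 / 2 : ℝ) • x + (1 / 2 : ℝ) • y) (Der X ε n) + ε / (8 * 2 ^ N)
      ≤ 1 / 2 * infDist x (Der X ε n) + 1 / 2 * infDist y (Der X ε n) := by
  by_contra hcon
  push Not at hcon
  set τ := ε / (8 * 2 ^ N) with hτ
  have hτ0 : 0 < τ := by positivity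
  have key : ∀ n ≤ N, (Der X ε n).Nonempty ∧ (n < N →
      infDist x (Der X ε n) ≤ 4 * (2 ^ n - 1) * τ ∧ infDist y (Der X ε n) ≤ 4 * (2 ^ n - 1) * τ) := by
    intro n
    induction n with
    | zero =>
      intro _
      refine ⟨⟨0, by simp [Der]⟩, fun _ => ?_⟩
      rw [infDist_zero_of_mem (by simpa [Der] using hx),
        infDist_zero_of_mem (by simpa [Der] using hy)]
      simp
    | succ n ih =>
      intro hn
      obtain ⟨hne, hb⟩ := ih (by omega)
      obtain ⟨hbx, hby⟩ := hb (by omega)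
      obtain ⟨x', hx', hxx⟩ := (infDist_lt_iff hne).1 (hbx.trans_lt (lt_add_of_pos_right _ hτ0))
      obtain ⟨y', hy', hyy⟩ := (infDist_lt_iff hne).1 (hby.trans_lt (lt_add_of_pos_right _ hτ0))
      have h2 : (2 : ℝ) ^ n ≤ 2 ^ N := pow_le_pow_right₀ (by norm_num) (by omega)
      have h3 : 8 * 2 ^ N * τ = ε := by rw [hτ]; field_simp
      have h4 : 2 ^ n * τ ≤ 2 ^ N * τ := by gcongr
      have hsep : ε ≤ ‖x' - y'‖ := by
        rw [← dist_eq_norm] at hxy ⊢
        have := dist_triangle4 x x' y' y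
        rw [dist_comm y' y] at this
        nlinarith
      have hm : (1 / 2 : ℝ) • (x' + y') ∈ Der X ε (n + 1) :=
        subset_convexHull _ _ ⟨x', hx', y', hy', hsep, rfl⟩
      refine ⟨⟨_, hm⟩, fun hlt => ?_⟩
      have h5 := hcon (n + 1) hlt
      have h6 : infDist ((1 / 2 : ℝ) • x + (1 / 2 : ℝ) • y) (Der X ε (n + 1))
          ≤ 4 * (2 ^ n - 1) * τ + τ := by
        refine (infDist_le_dist_of_mem hm).trans ?_
        rw [smul_add]
        refine (dist_add_add_le _ _ _ _).trans ?_
        rw [dist_smul₀, dist_smul₀, Real.norm_of_nonneg (by norm_num)]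
        linarith
      have h7 := infDist_nonneg (x := x) (s := Der X ε (n + 1))
      have h8 := infDist_nonneg (x := y) (s := Der X ε (n + 1))
      rw [pow_succ]
      constructor <;> nlinarith
  have := (key N le_rfl).1
  rw [hN] at this
  exact Set.not_nonempty_empty this

theorem renorm_of_der (h : ∀ ε : ℝ, 0 < ε → ∃ N, Der X ε N = ∅) :
    HasEquivUniformlyConvexNorm X := by
  choose! Nf hNf using h
  set e : ℕ → ℝ := fun k => (1 / 2) ^ k with he
  have he0 : ∀ k, 0 < e k := fun k => by positivity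
  set D : ℕ → X → ℝ := fun k x =>
    (1 / 2) ^ k * ((Nf (e k) + 1 : ℝ)⁻¹ * ∑ n ∈ range (Nf (e k)), infDist x (Der X (e k) n)) with hD
  have hD0 : ∀ k x, 0 ≤ D k x := fun k x =>
    mul_nonneg (by positivity) (mul_nonneg (by positivity) (sum_nonneg fun _ _ => infDist_nonneg))
  have havg : ∀ (N : ℕ) (g : ℕ → ℝ) (c : ℝ), 0 ≤ c → (∀ n, g n ≤ c) →
      (N + 1 : ℝ)⁻¹ * ∑ n ∈ range N, g n ≤ c := by
    intro N g c hc hg
    rw [inv_mul_le_iff₀ (by positivity)]
    have := sum_le_sum (s := range N) fun n _ => hg n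
    rw [sum_const, card_range, nsmul_eq_mul] at this
    nlinarith
  have hD1 : ∀ k x, D k x ≤ (1 / 2) ^ k * ‖x‖ := fun k x =>
    mul_le_mul_of_nonneg_left (havg _ _ _ (norm_nonneg _) fun n => Der.infDist_le _ n x)
      (by positivity)
  have hDlip : ∀ k x y, D k x ≤ D k y + (1 / 2) ^ k * ‖x - y‖ := by
    intro k x y
    have := havg (Nf (e k)) (fun n => infDist x (Der X (e k) n) - infDist y (Der X (e k) n))
      ‖x - y‖ (norm_nonneg _) fun n => by
        have := infDist_le_infDist_add_dist (x := x) (y := y) (s := Der X (e k) n)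
        rw [dist_eq_norm] at this
        linarith
    rw [sum_sub_distrib, mul_sub] at this
    have h2 := mul_le_mul_of_nonneg_left this (by positivity : (0 : ℝ) ≤ (1 / 2) ^ k)
    simp only [hD]
    linarith
  have hDconv : ∀ k x y (a b : ℝ), 0 ≤ a → 0 ≤ b → a + b = 1 →
      D k (a • x + b • y) ≤ a * D k x + b * D k y := by
    intro k x y a b ha hb hab
    have h1 := sum_le_sum (s := range (Nf (e k))) fun n _ =>
      infDist_convex (Der.convex (e k) n) x y ha hb hab
    rw [sum_add_distrib, ← mul_sum, ← mul_sum] at h1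
    have h2 := mul_le_mul_of_nonneg_left h1
      (by positivity : (0 : ℝ) ≤ (1 / 2) ^ k * (Nf (e k) + 1 : ℝ)⁻¹)
    simp only [hD]
    linarith
  have hsum : ∀ x, Summable fun k => D k x := fun x =>
    Summable.of_nonneg_of_le (fun k => hD0 k x) (fun k => hD1 k x)
      (summable_geometric_two.mul_right _)
  set F : X → ℝ := fun x => ‖x‖ + ∑' k, D k x with hF
  have hF1 : ∀ x, ‖x‖ ≤ F x := fun x => le_add_of_nonneg_right (tsum_nonneg fun k => hD0 k x)
  have hFlip : ∀ x y, F x ≤ F y + 3 * ‖x - y‖ := by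
    intro x y
    have h1 := (hsum x).tsum_le_tsum (fun k => hDlip k x y)
      ((hsum y).add (summable_geometric_two.mul_right _))
    rw [(hsum y).tsum_add (summable_geometric_two.mul_right _), tsum_mul_right,
      tsum_geometric_two] at h1
    have h2 := norm_sub_norm_le x y
    simp only [hF]
    linarith
  have hF0 : F 0 = 0 := by
    have : ∀ k, D k 0 = 0 := fun k => le_antisymm (by simpa using hD1 k 0) (hD0 k 0)
    simp [hF, this]
  have hF3 : ∀ x, F x ≤ 3 * ‖x‖ := fun x => by simpa [hF0] using hFlip x 0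
  have hFneg : ∀ x, F (-x) = F x := fun x => by simp only [hF, hD, Der.infDist_neg, norm_neg]
  have hFconv' : ∀ x y (a b : ℝ), 0 ≤ a → 0 ≤ b → a + b = 1 → ∀ (k : ℕ) (c : ℝ),
      D k (a • x + b • y) + c ≤ a * D k x + b * D k y →
      F (a • x + b • y) + c ≤ a * F x + b * F y := by
    intro x y a b ha hb hab k c hc
    have hs : Summable fun k => a * D k x + b * D k y - D k (a • x + b • y) :=
      (((hsum x).mul_left a).add ((hsum y).mul_left b)).sub (hsum _)
    have h1 := hs.le_tsum k fun j _ => sub_nonneg.2 (hDconv j x y a b ha hb hab)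
    rw [(((hsum x).mul_left a).add ((hsum y).mul_left b)).tsum_sub (hsum _),
      ((hsum x).mul_left a).tsum_add ((hsum y).mul_left b), tsum_mul_left, tsum_mul_left] at h1
    have h2 := norm_add_le (a • x) (b • y)
    rw [norm_smul, norm_smul, Real.norm_of_nonneg ha, Real.norm_of_nonneg hb] at h2
    simp only [hF]
    linarith
  set K : Set X := {x | F x ≤ 1} with hK
  have hKconv : Convex ℝ K := by
    intro x hx y hy a b ha hb hab
    have h1 := hFconv' x y a b ha hb hab 0 0 (by simpa using hDconv 0 x y a b ha hb hab)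
    have h2 := mul_le_mul_of_nonneg_left (show F x ≤ 1 from hx) ha
    have h3 := mul_le_mul_of_nonneg_left (show F y ≤ 1 from hy) hb
    show F _ ≤ 1
    linarith
  have hKsub : closedBall (0 : X) (1 / 3) ⊆ K := fun x hx => by
    have := hF3 x
    rw [mem_closedBall_zero_iff] at hx
    show F x ≤ 1
    linarith
  have hKsup : K ⊆ closedBall (0 : X) 1 := fun x hx =>
    mem_closedBall_zero_iff.2 ((hF1 x).trans hx)
  have hKnhds : K ∈ 𝓝 (0 : X) := Filter.mem_of_superset (closedBall_mem_nhds 0 (by norm_num)) hKsub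
  have hKabs : Absorbent ℝ K := absorbent_nhds_zero hKnhds
  have hKbal : Balanced ℝ K := by
    refine (balanced_iff_neg_mem hKconv).2 fun x hx => ?_
    show F (-x) ≤ 1
    rw [hFneg]; exact hx
  have hFcont : Continuous F := by
    refine (LipschitzWith.of_le_add_mul 3 fun x y => ?_).continuous
    rw [dist_eq_norm]; exact_mod_cast hFlip x y
  have hKcl : IsClosed K := isClosed_le hFcont continuous_const
  refine ⟨gaugeSeminorm hKbal hKconv hKabs, 1, 3, one_pos, by norm_num, fun x => ⟨?_, ?_⟩, ?_⟩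
  · have := gauge_mono hKabs hKsup x
    rw [gauge_closedBall zero_le_one] at this
    simpa using this
  · have := gauge_mono (absorbent_nhds_zero (closedBall_mem_nhds (0 : X) (by norm_num))) hKsub x
    rw [gauge_closedBall (by norm_num)] at this
    simp only [gaugeSeminorm_toFun]
    linarith
  · intro ε hε _
    obtain ⟨k, hk⟩ := exists_pow_lt_of_lt_one (x := ε / 6) (y := (1 / 2 : ℝ)) (by positivity)
      (by norm_num)
    set c : ℝ := (1 / 2) ^ k * ((Nf (e k) + 1 : ℝ)⁻¹ * (e k / (8 * 2 ^ Nf (e k)))) with hc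
    have hc0 : 0 < c := by have := he0 k; positivity
    refine ⟨c / (3 + c), by positivity, fun x y hx hy hxy => ?_⟩
    simp only [gaugeSeminorm_toFun] at hx hy hxy ⊢
    rw [gauge_le_one_iff_mem_closure hKconv hKnhds, hKcl.closure_eq] at hx hy
    have hxy' : 2 * e k ≤ ‖x - y‖ := by
      have := gauge_mono (absorbent_nhds_zero (closedBall_mem_nhds (0 : X) (by norm_num)))
        hKsub (x - y)
      rw [gauge_closedBall (by norm_num)] at this
      simp only [he]
      linarith
    obtain ⟨n, hn, hdef⟩ := Der.defect (he0 k) (hNf _ (he0 k)) ((hF1 x).trans hx)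
      ((hF1 y).trans hy) hxy'
    have h1 : D k ((1 / 2 : ℝ) • x + (1 / 2 : ℝ) • y) + c ≤ 1 / 2 * D k x + 1 / 2 * D k y := by
      have h2 := single_le_sum (s := range (Nf (e k)))
        (f := fun n => 1 / 2 * infDist x (Der X (e k) n) + 1 / 2 * infDist y (Der X (e k) n)
          - infDist ((1 / 2 : ℝ) • x + (1 / 2 : ℝ) • y) (Der X (e k) n))
        (fun n _ => sub_nonneg.2 (infDist_convex (Der.convex (e k) n) x y (by norm_num)
          (by norm_num) (by norm_num))) (mem_range.2 hn)
      rw [sum_sub_distrib, sum_add_distrib, ← mul_sum, ← mul_sum] at h2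
      have h3 := mul_le_mul_of_nonneg_left (le_trans (le_sub_iff_add_le'.2 hdef) h2)
        (by positivity : (0 : ℝ) ≤ (1 / 2) ^ k * (Nf (e k) + 1 : ℝ)⁻¹)
      simp only [hD, hc]
      linarith
    have h2 := hFconv' x y _ _ (by norm_num) (by norm_num) (by norm_num) k c h1
    rw [← smul_add] at h2
    set m := (1 / 2 : ℝ) • (x + y)
    have hFm : F m ≤ 1 - c := by
      have := show F x ≤ 1 from hx
      have := show F y ≤ 1 from hy
      linarith
    have hm1 : ‖m‖ ≤ 1 := (hF1 m).trans (by linarith)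
    have hmem : (1 + c / 3) • m ∈ K := by
      have h3 := hFlip ((1 + c / 3) • m) m
      have h4 : (1 + c / 3) • m - m = (c / 3) • m := by rw [add_smul, one_smul]; abel
      rw [h4, norm_smul, Real.norm_of_nonneg (by positivity)] at h3
      show F _ ≤ 1
      nlinarith
    refine gauge_le_of_mem (by rw [sub_nonneg, div_le_one (by positivity)]; linarith) ?_
    refine ⟨_, hmem, ?_⟩
    simp only [smul_smul]
    have : (1 - c / (3 + c)) * (1 + c / 3) = 1 := by field_simp; ring
    rw [this, one_smul]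

end Crest.Agent.R140
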