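import Mathlib

/-!
Partial sums of finitely supported sequences, zigzag vectors and the norm bounds for seminorms that
are contracted by monotone merging of coordinates.
-/

set_option autoImplicit false

open Finset Finsupp
open scoped BigOperators

namespace Crest.Agent.R140

/-- partial sums -/
noncomputable def Fl (k : ℕ) : (ℕ →₀ ℝ) →ₗ[ℝ] ℝ :=
  linearCombination ℝ fun j => if j ≤ k then (1 : ℝ) else 0

/-- total sum -/
noncomputable def tot : (ℕ →₀ ℝ) →ₗ[ℝ] ℝ := linearCombination ℝ fun _ => (1 : ℝ)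

/-- zigzag vectors -/
noncomputable def zz (J : ℕ) (u v : ℕ → ℕ) : ℕ →₀ ℝ :=
  ∑ a ∈ range J, (single (u a) 1 - single (v a) 1)

/-- the standard zigzag vector -/
noncomputable def zig (J : ℕ) : ℕ →₀ ℝ := zz J (fun a => 2 * a) (fun a => 2 * a + 1)

lemma Fl_single (k j : ℕ) (c : ℝ) : Fl k (single j c) = if j ≤ k then c else 0 := by
  simp [Fl]

lemma tot_zz (J : ℕ) (u v : ℕ → ℕ) : tot (zz J u v) = 0 := by
  simp [tot, zz, map_sum]

lemma Fl_zz_zero {J k : ℕ} {u v : ℕ → ℕ} (h : ∀ a < J, (u a ≤ k ↔ v a ≤ k)) :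
    Fl k (zz J u v) = 0 := by
  rw [zz, map_sum]
  refine sum_eq_zero fun a ha => ?_
  simp [Fl_single, h a (mem_range.1 ha)]

lemma Fl_zz_one {J k a : ℕ} {u v : ℕ → ℕ} (ha : a < J) (h1 : u a ≤ k) (h2 : k < v a)
    (h : ∀ b < J, b ≠ a → (u b ≤ k ↔ v b ≤ k)) : Fl k (zz J u v) = 1 := by
  rw [zz, map_sum, sum_eq_single_of_mem a (mem_range.2 ha)]
  · simp [Fl_single, h1, h2.not_ge]
  · intro b hb hba
    simp [Fl_single, h b (mem_range.1 hb) hba]

lemma Fl_ext {T T' : ℕ →₀ ℝ} (h : ∀ k, Fl k T = Fl k T') : T = T' := by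
  have h0 : ∀ T : ℕ →₀ ℝ, T 0 = Fl 0 T := by
    intro T
    induction T using Finsupp.induction_linear with
    | zero => simp
    | add f g hf hg => simp [hf, hg]
    | single a b => simp [Fl_single, single_apply]
  have hs : ∀ (i : ℕ) (T : ℕ →₀ ℝ), T (i + 1) = Fl (i + 1) T - Fl i T := by
    intro i T
    induction T using Finsupp.induction_linear with
    | zero => simp
    | add f g hf hg => simp only [Finsupp.add_apply, hf, hg, map_add]; ring
    | single a b =>
      simp only [Fl_single, single_apply]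
      split_ifs <;> first | omega | simp
  ext i
  rcases i with _ | i
  · rw [h0, h0, h]
  · rw [hs, hs, h, h]

lemma Fl_mapDomain {g : ℕ → ℕ} {i k : ℕ} (h : ∀ j, g j ≤ i ↔ j ≤ k) (T : ℕ →₀ ℝ) :
    Fl i (mapDomain g T) = Fl k T := by
  simp only [Fl, linearCombination_mapDomain]
  congr 2
  ext j
  simp [h]

lemma Fl_mapDomain' {g : ℕ → ℕ} {i : ℕ} (h : ∀ j, g j ≤ i) (T : ℕ →₀ ℝ) :
    Fl i (mapDomain g T) = tot T := by
  simp only [Fl, tot, linearCombination_mapDomain]
  congr 2
  ext j
  simp [h]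

lemma mapDomain_zz (g : ℕ → ℕ) (J : ℕ) (u v : ℕ → ℕ) :
    mapDomain g (zz J u v) = zz J (fun a => g (u a)) (fun a => g (v a)) := by
  rw [← lmapDomain_apply ℝ ℝ, zz, map_sum]
  simp only [zz, map_sub, lmapDomain_apply, mapDomain_single]

variable {N : Seminorm ℝ (ℕ →₀ ℝ)}

lemma zz_le (hm : ∀ q : ℕ → ℕ, Monotone q → ∀ μ, N (mapDomain q μ) ≤ N μ) (J : ℕ) {u v : ℕ → ℕ}
    (h1 : ∀ a, u a ≤ v a) (h2 : ∀ a, v a ≤ u (a + 1)) : N (zz J u v) ≤ N (zig J) := by
  have := hm (fun i => if i % 2 = 0 then u (i / 2) else v (i / 2))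
    (monotone_nat_of_le_succ fun i => by
      rcases Nat.mod_two_eq_zero_or_one i with h | h
      · have e1 : (i + 1) % 2 = 1 := by omega
        have e2 : (i + 1) / 2 = i / 2 := by omega
        simp [h, e1, e2, h1]
      · have e1 : (i + 1) % 2 = 0 := by omega
        have e2 : (i + 1) / 2 = i / 2 + 1 := by omega
        simp [h, e1, e2, h2]) (zig J)
  rw [zig, mapDomain_zz] at this
  convert this using 4 with a a
  · simp
  · have e2 : (2 * a + 1) / 2 = a := by omega
    simp [e2]
  · rfl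

lemma zz_two_le (hm : ∀ q : ℕ → ℕ, Monotone q → ∀ μ, N (mapDomain q μ) ≤ N μ) (J : ℕ)
    {u v : ℕ → ℕ} (h1 : ∀ a, u a ≤ v a) (h2 : ∀ a, v a ≤ u (a + 1)) :
    N (zz (J + J) u v) ≤ 2 * N (zig J) := by
  have e : zz (J + J) u v = zz J u v + zz J (fun a => u (J + a)) (fun a => v (J + a)) := by
    simp only [zz, sum_range_add]
  have a1 := zz_le hm J h1 h2
  have a2 := zz_le hm J (u := fun a => u (J + a)) (v := fun a => v (J + a)) (fun a => h1 _)
    (fun a => h2 _)
  have := map_add_le_add N (zz J u v) (zz J (fun a => u (J + a)) (fun a => v (J + a)))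
  rw [e]
  linarith

lemma two_pt (hm : ∀ q : ℕ → ℕ, Monotone q → ∀ μ, N (mapDomain q μ) ≤ N μ) {T : ℕ →₀ ℝ}
    (hT : tot T = 0) (k : ℕ) : |Fl k T| * N (single 0 1 - single 1 1) ≤ N T := by
  have := hm (fun j => if j ≤ k then 0 else 1) (fun a b hab => by
    dsimp only
    split_ifs <;> omega) T
  have e : mapDomain (fun j => if j ≤ k then 0 else 1) T =
      Fl k T • (single 0 1 - single 1 1 : ℕ →₀ ℝ) := by
    refine Fl_ext fun i => ?_
    rcases i with _ | i
    · rw [Fl_mapDomain (k := k) fun j => by split_ifs <;> omega]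
      simp [Fl_single]
    · rw [Fl_mapDomain' fun j => by split_ifs <;> omega]
      simp [Fl_single, hT]
  rwa [e, map_smul_eq_mul] at this

lemma le_zig (hm : ∀ q : ℕ → ℕ, Monotone q → ∀ μ, N (mapDomain q μ) ≤ N μ) {J : ℕ} (hJ : 0 < J) :
    N (single 0 1 - single 1 1) ≤ N (zig J) := by
  have := two_pt hm (T := zig J) (tot_zz _ _ _) 0
  rw [zig, Fl_zz_one hJ (by simp) (by simp) (fun b _ hb => by omega)] at this
  simpa [zig] using this

lemma end_bound (h1 : ∀ n, N (single n 1) ≤ 1)
    (hm : ∀ q : ℕ → ℕ, Monotone q → ∀ μ, N (mapDomain q μ) ≤ N μ) {T : ℕ →₀ ℝ} (hT : tot T = 0)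
    (J : ℕ) (k : ℕ → ℕ) {t : ℝ} (ht : 0 ≤ t) (hk : ∀ i < 2 * J, k i < k (i + 1))
    (hF : ∀ i ≤ 2 * J, Fl (k i) T = if i % 2 = 0 then -t else t) :
    2 * t * N (zig J) ≤ N T + 2 * t := by
  have hk' : ∀ i j, i ≤ j → j ≤ 2 * J → k i ≤ k j := by
    intro i j hij
    induction j, hij using Nat.le_induction with
    | base => exact fun _ => le_rfl
    | succ j _ ih => exact fun h => (ih (by omega)).trans (hk j (by omega)).le
  let g : ℕ → ℕ := fun j => ((range (2 * J + 1)).filter fun i => k i < j).card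
  have hg : Monotone g := fun a b hab => card_le_card fun i hi => by
    simp only [mem_filter] at hi ⊢
    exact ⟨hi.1, hi.2.trans_le hab⟩
  have hg1 : ∀ i ≤ 2 * J, ∀ j, g j ≤ i ↔ j ≤ k i := by
    intro i hi j
    constructor
    · intro h
      by_contra hc
      have : range (i + 1) ⊆ (range (2 * J + 1)).filter fun i => k i < j := by
        intro a ha
        simp only [mem_filter, mem_range] at ha ⊢
        have := hk' a i (by omega) hi
        omega
      have := card_le_card this
      simp only [card_range] at this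
      exact absurd (this.trans h) (by omega)
    · intro h
      have : ((range (2 * J + 1)).filter fun i => k i < j) ⊆ range i := by
        intro a ha
        simp only [mem_filter, mem_range] at ha ⊢
        by_contra hc
        have := hk' i a (by omega) (by omega)
        omega
      simpa using card_le_card this
  have hg2 : ∀ j, g j ≤ 2 * J + 1 := fun j => by simpa using card_filter_le (range (2 * J + 1)) _
  have e : mapDomain g T = (-t) • single 0 1 +
      (2 * t) • zz J (fun a => 2 * a + 1) (fun a => 2 * a + 2) + t • single (2 * J + 1) 1 := by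
    refine Fl_ext fun i => ?_
    simp only [map_add, map_smul, Fl_single, smul_eq_mul]
    by_cases hi : i ≤ 2 * J
    · rw [Fl_mapDomain (hg1 i hi), hF i hi]
      have e1 : ¬ 2 * J + 1 ≤ i := by omega
      simp only [e1, Nat.zero_le, if_true, if_false]
      split_ifs with h
      · rw [Fl_zz_zero fun a _ => by omega]
        simp
      · rw [Fl_zz_one (a := i / 2) (by omega) (by omega) (by omega) fun b _ _ => by omega]
        ring
    · rw [Fl_mapDomain' fun j => (hg2 j).trans (by omega), hT, Fl_zz_zero fun a _ => by omega]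
      have e1 : 2 * J + 1 ≤ i := by omega
      simp [e1]
  have a1 := hm g hg T
  have a2 := hm (fun j => j - 1) (fun a b hab => Nat.sub_le_sub_right hab 1)
    (zz J (fun a => 2 * a + 1) (fun a => 2 * a + 2))
  rw [mapDomain_zz] at a2
  change N (zig J) ≤ _ at a2
  have e2 : (2 * t) • zz J (fun a => 2 * a + 1) (fun a => 2 * a + 2) =
      mapDomain g T + t • single 0 1 + (-t) • single (2 * J + 1) 1 := by
    rw [e]; module
  have a3 : N ((2 * t) • zz J (fun a => 2 * a + 1) (fun a => 2 * a + 2)) ≤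
      N (mapDomain g T) + N (t • single 0 1) + N ((-t) • single (2 * J + 1) 1) := by
    rw [e2]
    exact (map_add_le_add N _ _).trans (add_le_add_left (map_add_le_add N _ _) _)
  simp only [map_smul_eq_mul, Real.norm_eq_abs, abs_neg, abs_of_nonneg ht,
    abs_of_nonneg (show 0 ≤ 2 * t by linarith)] at a3
  nlinarith [h1 0, h1 (2 * J + 1)]

end Crest.Agent.R140
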